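import Vale.Agent.P176.FMod

/-!
Dévissage of a finite-dimensional module by filtered free modules.
-/

namespace Vale.Agent.P176

variable {k : Type} [Field k]

lemma F_le_L (i : ℕ) (n : ℤ) : F k (n - 1) ≤ L (k := k) i n := le_sup_left

lemma L_le_F (i : ℕ) (n : ℤ) : L (k := k) i n ≤ F k n := by
  refine sup_le (F_mono (by omega)) (iSup₂_le fun j _ => ?_)
  rintro _ ⟨w, hw, rfl⟩
  simpa using mul_mem_F hw (y_mem_F j)

lemma L_zero (n : ℤ) : L (k := k) 0 n = F k (n - 1) := by simp [L]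

lemma mul_y_mem_L {i : ℕ} {n : ℤ} {j : Fin 4} (hj : (j : ℕ) < i) {w : U k} (hw : w ∈ F k (n - 1)) :
    w * y k j ∈ L (k := k) i n :=
  Submodule.mem_sup_right (Submodule.mem_iSup_of_mem j (Submodule.mem_iSup_of_mem hj ⟨w, hw, rfl⟩))

lemma L_mono {i i' : ℕ} (h : i ≤ i') (n : ℤ) : L (k := k) i n ≤ L (k := k) i' n := by
  refine sup_le (F_le_L _ _) (iSup₂_le fun j hj => ?_)
  rintro _ ⟨w, hw, rfl⟩
  exact mul_y_mem_L (by omega) hw

lemma mem_L_succ {i : Fin 4} {n : ℤ} {u : U k} (hu : u ∈ L (k := k) (i + 1) n) :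
    ∃ w ∈ F k (n - 1), u - w * y k i ∈ L (k := k) i n := by
  have : L (k := k) (i + 1) n ≤
      L (k := k) i n ⊔ (F k (n - 1)).map (LinearMap.mulRight k (y k i)) := by
    refine sup_le (le_sup_of_le_left (F_le_L _ _)) (iSup₂_le fun j hj => ?_)
    rintro _ ⟨w, hw, rfl⟩
    by_cases hji : j = i
    · subst hji; exact Submodule.mem_sup_right ⟨w, hw, rfl⟩
    · have : (j : ℕ) ≠ i := fun h => hji (Fin.ext h)
      exact Submodule.mem_sup_left (mul_y_mem_L (by omega) hw)
  obtain ⟨l, hl, _, ⟨w, hw, rfl⟩, rfl⟩ := Submodule.mem_sup.1 (this hu)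
  exact ⟨w, hw, by simpa using hl⟩

lemma F_le_L_four {n : ℤ} (hn : 1 ≤ n) : F k n ≤ L (k := k) 4 n := by
  intro u hu
  rw [← sub_add_cancel n 1] at hu
  refine F_succ_induction_right (by omega) (P := fun u => u ∈ L (k := k) 4 n) ?_ ?_ ?_ hu
  · exact fun u hu => F_le_L _ _ hu
  · exact fun u hu i => mul_y_mem_L i.2 hu
  · exact fun a b => add_mem

/-- the key consequence of the PBW theorem -/
def PBWKey (k : Type) [Field k] : Prop :=
  ∀ (i : Fin 4) (n : ℤ) (u : U k), u ∈ F k n → u * y k i ∈ L (k := k) i (n + 1) →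
    u ∈ L (k := k) i n

variable {ι : Type}

/-- the initial ideal of `J` is generated by the first `i` variables -/
structure HasType (i : ℕ) (J : Submodule (U k) (ι → U k)) : Prop where
  le : ∀ n, ∀ u ∈ J, (∀ a, u a ∈ F k n) → ∀ a, u a ∈ L (k := k) i n
  ge : ∀ n (u : ι → U k), (∀ a, u a ∈ L (k := k) i n) →
    ∃ j ∈ J, (∀ a, j a ∈ F k n) ∧ ∀ a, u a - j a ∈ F k (n - 1)

/-- `D` has symbol `y i` -/
def HasSymbol (i : Fin 4) (D : (ι → U k) →ₗ[U k] (ι → U k)) : Prop :=
  ∀ n (u : ι → U k), (∀ a, u a ∈ F k n) → ∀ a, D u a - u a * y k i ∈ F k n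

lemma HasSymbol.mem {i : Fin 4} {D : (ι → U k) →ₗ[U k] (ι → U k)} (hD : HasSymbol i D) {n : ℤ}
    {u : ι → U k} (hu : ∀ a, u a ∈ F k n) (a : ι) : D u a ∈ F k (n + 1) := by
  have := add_mem (F_mono (by omega : n ≤ n + 1) (hD n u hu a)) (mul_mem_F (hu a) (y_mem_F i))
  simpa using this

lemma exists_F [Finite ι] (u : ι → U k) : ∃ n : ℕ, ∀ a, u a ∈ F k n := by
  choose n hn using fun a => exists_mem_F (u a)
  obtain ⟨N, hN⟩ := (Set.finite_range n).bddAbove
  exact ⟨N, fun a => F_mono (by exact_mod_cast hN ⟨a, rfl⟩) (hn a)⟩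

section Step

variable (hK : PBWKey k) {i : Fin 4} {J J' : Submodule (U k) (ι → U k)}
  {D : (ι → U k) →ₗ[U k] (ι → U k)} (hJ : HasType i J) (hJ' : HasType i J')
  (hD : HasSymbol i D) (hDJ : ∀ j ∈ J', D j ∈ J)
include hK hJ hJ' hD

lemma step_C {n : ℤ} {u : ι → U k} (hu : ∀ a, u a ∈ F k n) {j : ι → U k} (hj : j ∈ J)
    (h : ∀ a, D u a - j a ∈ F k n) :
    ∃ j' ∈ J', ∀ a, u a - j' a ∈ F k (n - 1) := by
  have hjF : ∀ a, j a ∈ F k (n + 1) := fun a => by
    have := sub_mem (hD.mem hu a) (F_mono (by omega : n ≤ n + 1) (h a))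
    simpa using this
  have hL : ∀ a, u a ∈ L (k := k) i n := fun a => by
    refine hK i n _ (hu a) ?_
    have h1 : D u a - j a ∈ L (k := k) i (n + 1) := F_le_L _ _ (by simpa using h a)
    have h2 : D u a - u a * y k i ∈ L (k := k) i (n + 1) :=
      F_le_L _ _ (by simpa using hD n u hu a)
    have := sub_mem (add_mem h1 (hJ.le _ j hj hjF a)) h2
    simpa using this
  obtain ⟨j', hj', -, h'⟩ := hJ'.ge n u hL
  exact ⟨j', hj', h'⟩

include hDJ

lemma step_inj [Finite ι] {u : ι → U k} (h : D u ∈ J) : u ∈ J' := by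
  obtain ⟨n, hn⟩ := exists_F u
  have : ∀ (n : ℕ) (u : ι → U k), (∀ a, u a ∈ F k ((n : ℤ) - 1)) → D u ∈ J → u ∈ J' := by
    intro n
    induction n with
    | zero =>
      intro u hu _
      have : u = 0 := funext fun a => by simpa [F_neg] using hu a
      simp [this]
    | succ n ih =>
      intro u hu h
      obtain ⟨j', hj', h'⟩ := step_C hK hJ hJ' hD (n := n) (by simpa using hu) h (by simp)
      have := ih (u - j') h' (by rw [map_sub]; exact sub_mem h (hDJ _ hj'))
      simpa using add_mem this hj'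
  exact this (n + 1) u (by simpa using hn) h

lemma step_strict [Finite ι] {n : ℤ} {q : ι → U k} (hq : ∀ a, q a ∈ F k n)
    (h : q ∈ J ⊔ LinearMap.range D) :
    ∃ u : ι → U k, (∀ a, u a ∈ F k (n - 1)) ∧ q - D u ∈ J := by
  obtain ⟨j, hj, _, ⟨u, rfl⟩, rfl⟩ := Submodule.mem_sup.1 h
  obtain ⟨N, hN⟩ := exists_F u
  have : ∀ (m : ℕ) (u : ι → U k), (∀ a, u a ∈ F k (n - 1 + m)) → ∀ q : ι → U k,
      (∀ a, q a ∈ F k n) → q - D u ∈ J →
      ∃ u : ι → U k, (∀ a, u a ∈ F k (n - 1)) ∧ q - D u ∈ J := by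
    intro m
    induction m with
    | zero => intro u hu q _ h; exact ⟨u, by simpa using hu, h⟩
    | succ m ih =>
      intro u hu q hq h
      obtain ⟨j', hj', h'⟩ := step_C hK hJ hJ' hD hu (neg_mem h)
        (fun a => by simpa using F_mono (by omega) (hq a))
      refine ih (u - j') (fun a => ?_) q hq ?_
      · have := h' a
        push_cast at this
        rwa [show n - 1 + (m + 1) - 1 = n - 1 + m by ring] at this
      · have := add_mem h (hDJ _ hj')
        rw [map_sub]; convert this using 1; abel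
  exact this (N + 1 - n).toNat u (fun a => F_mono (by omega) (hN a)) _ hq (by simpa using hj)

lemma step_type [Finite ι] : HasType (i + 1) (J ⊔ LinearMap.range D) where
  le n q hq hqF a := by
    obtain ⟨u, hu, h⟩ := step_strict hK hJ hJ' hD hDJ hqF hq
    have h1 : ∀ a, (q - D u) a ∈ F k n := fun a =>
      sub_mem (hqF a) (by simpa using hD.mem hu a)
    have h2 := L_mono (Nat.le_succ i) n (hJ.le n _ h h1 a)
    have h3 : D u a - u a * y k i ∈ L (k := k) (i + 1) n := F_le_L _ _ (hD _ u hu a)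
    have h4 : u a * y k i ∈ L (k := k) (i + 1) n := mul_y_mem_L (by omega) (hu a)
    simpa using add_mem h2 (add_mem h3 h4)
  ge n u hu := by
    choose w hw hw' using fun a => mem_L_succ (hu a)
    obtain ⟨j, hj, hjF, h⟩ := hJ.ge n (fun a => u a - w a * y k i) hw'
    refine ⟨j + D w, add_mem (Submodule.mem_sup_left hj) (Submodule.mem_sup_right ⟨w, rfl⟩),
      fun a => add_mem (hjF a) (by simpa using hD.mem hw a), fun a => ?_⟩
    have := sub_mem (h a) (hD _ w hw a)
    convert this using 1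
    simp only [Pi.add_apply]; abel

end Step

lemma hasType_bot : HasType 0 (⊥ : Submodule (U k) (ι → U k)) where
  le n u hu _ a := by simp at hu; simp [hu]
  ge n u hu := ⟨0, zero_mem _, fun _ => zero_mem _, fun a => by simpa [L_zero] using hu a⟩

/-- the top filtration step is generated from the one below -/
def Gen (Q : FMod k) : Prop :=
  ∀ q ∈ Q.G 5, q ∈ AddSubgroup.closure {x | ∃ u ∈ F k 1, ∃ q' ∈ Q.G 4, u • q' = x}

lemma gen_quot [Finite ι] (J : Submodule (U k) (ι → U k)) {p : ℤ} (hp : p ≤ 4) :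
    Gen ((freeF k ι p).quot J) := by
  classical
  rintro _ ⟨q, hq, rfl⟩
  have := Fintype.ofFinite ι
  have hq' := mem_freeF.1 hq
  change J.mkQ q ∈ _
  rw [← Finset.univ_sum_single q, map_sum]
  refine sum_mem fun a _ => ?_
  have h := hq' a
  rw [show (5 : ℤ) - p = (4 - p) + 1 by ring] at h
  refine F_succ_induction_left (by omega) (P := fun u => J.mkQ (Pi.single a u) ∈
    AddSubgroup.closure {x | ∃ u ∈ F k 1, ∃ q' ∈ ((freeF k ι p).quot J).G 4, u • q' = x})
    ?_ ?_ ?_ h
  · intro u hu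
    refine AddSubgroup.subset_closure ⟨1, one_mem_F (by norm_num), J.mkQ (Pi.single a u),
      ⟨Pi.single a u, mem_freeF.2 fun b => ?_, rfl⟩, one_smul _ _⟩
    by_cases hb : b = a
    · subst hb; simpa using hu
    · simp [hb]
  · intro u hu i
    refine AddSubgroup.subset_closure ⟨y k i, y_mem_F i, J.mkQ (Pi.single a u),
      ⟨Pi.single a u, mem_freeF.2 fun b => ?_, rfl⟩, ?_⟩
    · by_cases hb : b = a
      · subst hb; simpa using hu
      · simp [hb]
    · change y k i • J.mkQ (Pi.single a u) = _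
      rw [← map_smul, ← Pi.single_smul]; rfl
  · intro u v hu hv
    rw [Pi.single_add, map_add]; exact add_mem hu hv

/-- properties of filtered modules that propagate along strict short exact sequences -/
structure Devissable (P : FMod k → Prop) : Prop where
  free : ∀ (ι : Type) [Fintype ι] [DecidableEq ι] (p : Fin 5), P (freeF k ι ((p : ℕ) : ℤ))
  iso : ∀ (Q₁ Q₂ : FMod k) (φ : Q₁.Q →ₗ[U k] Q₂.Q), (∀ n q, q ∈ Q₁.G n → φ q ∈ Q₂.G n) →
    Function.Injective φ → (∀ n, ∀ q ∈ Q₂.G n, ∃ q' ∈ Q₁.G n, φ q' = q) → P Q₁ → P Q₂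
  step : ∀ (Q₁ Q₂ Q₃ : FMod k) (φ : Q₁.Q →ₗ[U k] Q₂.Q) (ψ : Q₂.Q →ₗ[U k] Q₃.Q),
    (∀ n q, q ∈ Q₁.G n → φ q ∈ Q₂.G n) → (∀ n q, q ∈ Q₂.G n → ψ q ∈ Q₃.G n) →
    Function.Injective φ → (∀ q, ψ (φ q) = 0) →
    (∀ n, ∀ q ∈ Q₂.G n, ψ q = 0 → ∃ q' ∈ Q₁.G n, φ q' = q) →
    (∀ n, ∀ q ∈ Q₃.G n, ∃ q' ∈ Q₂.G n, ψ q' = q) → Gen Q₁ → P Q₁ → P Q₂ → P Q₃

lemma Devissable.bot {P : FMod k → Prop} (hP : Devissable P) [Fintype ι] [DecidableEq ι]
    {p : ℕ} (hp : p ≤ 4) : P ((freeF k ι p).quot ⊥) := by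
  refine hP.iso _ _ (Submodule.mkQ ⊥) (fun n q hq => ⟨q, hq, rfl⟩) ?_ ?_
    (hP.free ι ⟨p, by omega⟩)
  · exact LinearMap.ker_eq_bot.1 (Submodule.ker_mkQ (⊥ : Submodule (U k) (ι → U k)))
  · rintro n _ ⟨q, hq, rfl⟩; exact ⟨q, hq, rfl⟩

lemma Devissable.quot {P : FMod k → Prop} (hP : Devissable P) [Finite ι]
    (hK : PBWKey k) {i : Fin 4} {J J' : Submodule (U k) (ι → U k)}
    {D : (ι → U k) →ₗ[U k] (ι → U k)} (hJ : HasType i J) (hJ' : HasType i J')
    (hD : HasSymbol i D) (hDJ : ∀ j ∈ J', D j ∈ J) {p : ℕ} (hp : p + 1 ≤ 4)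
    (h₁ : P ((freeF k ι (p + 1 : ℕ)).quot J')) (h₂ : P ((freeF k ι p).quot J)) :
    P ((freeF k ι p).quot (J ⊔ LinearMap.range D)) := by
  refine hP.step _ _ _ (Submodule.mapQ J' J D hDJ)
    (Submodule.factor (le_sup_left : J ≤ J ⊔ LinearMap.range D)) ?_ ?_ ?_ ?_ ?_ ?_
    (gen_quot J' (by exact_mod_cast hp)) h₁ h₂
  · rintro n _ ⟨q, hq, rfl⟩
    refine ⟨D q, mem_freeF.2 fun a => ?_, rfl⟩
    have := hD.mem (mem_freeF.1 hq) a
    push_cast at this
    rwa [show n - (p + 1) + 1 = n - p by ring] at this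
  · rintro n _ ⟨q, hq, rfl⟩; exact ⟨q, hq, rfl⟩
  · refine (LinearMap.ker_eq_bot (f := Submodule.mapQ J' J D hDJ)).1 (eq_bot_iff.2 ?_)
    intro x hx
    obtain ⟨q, rfl⟩ := J'.mkQ_surjective x
    have : D q ∈ J := (Submodule.Quotient.mk_eq_zero J).1 hx
    exact (Submodule.Quotient.mk_eq_zero J').2 (step_inj hK hJ hJ' hD hDJ this)
  · intro x
    obtain ⟨q, rfl⟩ := J'.mkQ_surjective x
    exact (Submodule.Quotient.mk_eq_zero _).2 (Submodule.mem_sup_right ⟨q, rfl⟩)
  · rintro n _ ⟨q, hq, rfl⟩ h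
    obtain ⟨u, hu, h'⟩ := step_strict hK hJ hJ' hD hDJ (mem_freeF.1 hq)
      ((Submodule.Quotient.mk_eq_zero _).1 h)
    refine ⟨J'.mkQ u, ⟨u, mem_freeF.2 fun a => ?_, rfl⟩, ?_⟩
    · push_cast
      rw [show n - (p + 1) = n - p - 1 by ring]; exact hu a
    · exact ((Submodule.Quotient.eq J).2 h').symm
  · rintro n _ ⟨q, hq, rfl⟩; exact ⟨J.mkQ q, ⟨q, hq, rfl⟩, rfl⟩

lemma U_mul_neg (a b : U k) : a * -b = -(a * b) := mul_neg a b
lemma U_neg_mul (a b : U k) : -a * b = -(a * b) := neg_mul a b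
lemma U_neg_smul (c : k) (a : U k) : (-c) • a = -(c • a) := neg_smul c a
lemma U_sub_smul (c d : k) (a : U k) : (c - d) • a = c • a - d • a := sub_smul c d a
lemma U_smul_sub (c : k) (a b : U k) : c • (a - b) = c • a - c • b := smul_sub c a b

section Delta

variable [Fintype ι] [DecidableEq ι] (M : U k →ₐ[k] Matrix ι ι k)

/-- right multiplication minus the action on the coefficient module, minus a scalar -/
noncomputable def delta (z : U k) (c : k) : (ι → U k) →ₗ[U k] (ι → U k) where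
  toFun u a := u a * z - ∑ b, M z a b • u b - c • u a
  map_add' u v := funext fun a => by
    simp only [Pi.add_apply, add_mul, smul_add, Finset.sum_add_distrib]; abel
  map_smul' r u := funext fun a => by
    simp [mul_sub, mul_assoc, Finset.mul_sum]

lemma delta_apply (z : U k) (c : k) (u : ι → U k) (a : ι) :
    delta M z c u a = u a * z - ∑ b, M z a b • u b - c • u a := rfl

lemma delta_symbol (i : Fin 4) (c : k) : HasSymbol i (delta M (y k i) c) := by
  intro n u hu a
  have := neg_mem (add_mem (Submodule.sum_mem (F k n) (t := Finset.univ)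
    fun b _ => Submodule.smul_mem _ (M (y k i) a b) (hu b)) (Submodule.smul_mem _ c (hu a)))
  convert this using 1
  rw [delta_apply]; abel

lemma delta_eq (z : U k) (c : k) (u : ι → U k) :
    delta M z c u = delta M z 0 u - c • u := by
  funext a
  simp [delta_apply]

lemma delta_smul (z : U k) (d c : k) (u : ι → U k) :
    delta M z d (c • u) = c • delta M z d u := by
  funext a
  simp only [delta_apply, Pi.smul_apply, smul_mul_assoc, smul_sub, Finset.smul_sum, smul_smul,
    mul_comm c]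

lemma delta_comm0 (x z : U k) (u : ι → U k) :
    delta M x 0 (delta M z 0 u) = delta M z 0 (delta M x 0 u) + delta M (z * x - x * z) 0 u := by
  funext a
  simp only [delta_apply, Pi.add_apply, map_sub, map_mul, Matrix.sub_apply, Matrix.mul_apply,
    sub_mul, mul_sub, smul_sub, Finset.sum_sub_distrib, Finset.sum_mul, smul_mul_assoc,
    Finset.smul_sum, U_sub_smul, Finset.sum_smul, smul_smul, mul_assoc, zero_smul, sub_zero,
    zero_mul, Finset.sum_const_zero]
  rw [Finset.sum_comm (f := fun b e => (M x a b * M z b e) • u e),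
    Finset.sum_comm (f := fun b e => (M z a b * M x b e) • u e)]
  abel

lemma delta_comm (x z : U k) (c d : k) (u : ι → U k) :
    delta M x c (delta M z d u) = delta M z d (delta M x c u) + delta M (z * x - x * z) 0 u := by
  rw [delta_eq M x c, delta_eq M z d, delta_eq M z d, delta_eq M x c, map_sub, map_sub,
    delta_smul, delta_smul, delta_comm0 M x z, smul_sub, smul_sub, smul_comm c d u]
  abel

lemma delta_shift (z : U k) (c d : k) (u : ι → U k) :
    delta M z (c + d) u = delta M z c u - algebraMap k (U k) d • u := by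
  funext a
  simp only [delta_apply, Pi.sub_apply, Pi.smul_apply, add_smul, smul_eq_mul,
    ← Algebra.smul_def]
  abel

lemma delta_neg (z : U k) (u : ι → U k) : delta M (-z) 0 u = - delta M z 0 u := by
  funext a
  simp only [delta_apply, map_neg, Matrix.neg_apply, U_neg_smul, Finset.sum_neg_distrib, U_mul_neg,
    Pi.neg_apply, zero_smul]
  abel

lemma delta_zero (u : ι → U k) : delta M 0 0 u = 0 := by
  funext a
  simp [delta_apply]

lemma delta_sub (z z' : U k) (u : ι → U k) :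
    delta M (z - z') 0 u = delta M z 0 u - delta M z' 0 u := by
  funext a
  simp only [delta_apply, map_sub, Matrix.sub_apply, U_sub_smul, Finset.sum_sub_distrib, mul_sub,
    Pi.sub_apply, zero_smul]
  abel

/-- first step -/
noncomputable def J1 (a : k) : Submodule (U k) (ι → U k) :=
  ⊥ ⊔ LinearMap.range (delta M (y k 0) a)
/-- second step -/
noncomputable def J2 (a b : k) : Submodule (U k) (ι → U k) :=
  J1 M a ⊔ LinearMap.range (delta M (y k 1) b)
/-- third step -/
noncomputable def J3 (a b : k) : Submodule (U k) (ι → U k) :=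
  J2 M a b ⊔ LinearMap.range (delta M (y k 2) 0)
/-- fourth step -/
noncomputable def J4 : Submodule (U k) (ι → U k) :=
  J3 M 0 0 ⊔ LinearMap.range (delta M (y k 3) 0)

lemma map_sup_range {D : (ι → U k) →ₗ[U k] (ι → U k)} {J J' : Submodule (U k) (ι → U k)}
    {D' : (ι → U k) →ₗ[U k] (ι → U k)} (h₁ : ∀ j ∈ J', D j ∈ J) (h₂ : ∀ u, D (D' u) ∈ J) :
    ∀ j ∈ J' ⊔ LinearMap.range D', D j ∈ J := by
  intro j hj
  obtain ⟨j', hj', _, ⟨u, rfl⟩, rfl⟩ := Submodule.mem_sup.1 hj
  rw [map_add]; exact add_mem (h₁ j' hj') (h₂ u)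

lemma mem_J1 (a : k) (u : ι → U k) : delta M (y k 0) a u ∈ J1 M a :=
  Submodule.mem_sup_right ⟨u, rfl⟩
lemma mem_J2 (a b : k) (u : ι → U k) : delta M (y k 1) b u ∈ J2 M a b :=
  Submodule.mem_sup_right ⟨u, rfl⟩
lemma mem_J3 (a b : k) (u : ι → U k) : delta M (y k 2) 0 u ∈ J3 M a b :=
  Submodule.mem_sup_right ⟨u, rfl⟩

lemma D1_J0 (a : k) : ∀ j ∈ (⊥ : Submodule (U k) (ι → U k)),
    delta M (y k 0) a j ∈ (⊥ : Submodule (U k) (ι → U k)) := by
  intro j hj
  rw [Submodule.mem_bot] at hj ⊢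
  rw [hj, map_zero]

lemma D2_J1 (a b : k) : ∀ j ∈ J1 M a, delta M (y k 1) b j ∈ J1 M a := by
  refine map_sup_range (fun j hj => ?_) fun u => ?_
  · rw [Submodule.mem_bot] at hj; rw [hj, map_zero]; exact zero_mem _
  · rw [delta_comm, y_st, sub_self, delta_zero, add_zero]; exact mem_J1 M a _

lemma D3_J2 (a b : k) : ∀ j ∈ J2 M (a + 1) (b - 1), delta M (y k 2) 0 j ∈ J2 M a b := by
  refine map_sup_range (map_sup_range (fun j hj => ?_) fun u => ?_) fun u => ?_
  · rw [Submodule.mem_bot] at hj; rw [hj, map_zero]; exact zero_mem _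
  · rw [delta_comm, y_se, add_sub_cancel_left, delta_shift, map_one, one_smul, sub_add_cancel]
    exact Submodule.mem_sup_left (mem_J1 M a _)
  · rw [delta_comm, y_te, sub_sub_cancel_left, delta_neg]
    have := delta_shift M (y k 1) (b - 1) 1 (delta M (y k 2) 0 u)
    rw [sub_add_cancel, map_one, one_smul] at this
    rw [← sub_eq_add_neg, ← this]
    exact mem_J2 M a b _

lemma D4_J3 : ∀ j ∈ J3 M (-1) 1, delta M (y k 3) 0 j ∈ J3 M 0 0 := by
  refine map_sup_range (map_sup_range (map_sup_range (fun j hj => ?_) fun u => ?_) fun u => ?_)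
    fun u => ?_
  · rw [Submodule.mem_bot] at hj; rw [hj, map_zero]; exact zero_mem _
  · rw [delta_comm, y_sf, sub_sub_cancel_left, delta_neg]
    have := delta_shift M (y k 0) (-1) 1 (delta M (y k 3) 0 u)
    rw [neg_add_cancel, map_one, one_smul] at this
    rw [← sub_eq_add_neg, ← this]
    exact Submodule.mem_sup_left (Submodule.mem_sup_left (mem_J1 M 0 _))
  · have := delta_shift M (y k 1) 0 1 (delta M (y k 3) 0 u)
    rw [zero_add, map_one, one_smul] at this
    rw [delta_comm, y_tf, add_sub_cancel_left, this, sub_add_cancel]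
    exact Submodule.mem_sup_left (mem_J2 M 0 0 _)
  · rw [delta_comm, y_ef, show y k 3 * y k 2 + y k 0 - y k 1 - y k 3 * y k 2 = y k 0 - y k 1 by
      abel, delta_sub]
    exact add_mem (mem_J3 M 0 0 _) (sub_mem
      (Submodule.mem_sup_left (Submodule.mem_sup_left (mem_J1 M 0 _)))
      (Submodule.mem_sup_left (mem_J2 M 0 0 _)))

variable (hK : PBWKey k)
include hK

lemma type_J1 (a : k) : HasType 1 (J1 M a) :=
  step_type (i := 0) hK hasType_bot hasType_bot (delta_symbol M 0 a) (D1_J0 M a)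

lemma type_J2 (a b : k) : HasType 2 (J2 M a b) :=
  step_type (i := 1) hK (type_J1 M hK a) (type_J1 M hK a) (delta_symbol M 1 b) (D2_J1 M a b)

lemma type_J3 (a b : k) : HasType 3 (J3 M a b) :=
  step_type (i := 2) hK (type_J2 M hK a b) (type_J2 M hK _ _) (delta_symbol M 2 0) (D3_J2 M a b)

lemma type_J4 : HasType 4 (J4 M) :=
  step_type (i := 3) hK (type_J3 M hK 0 0) (type_J3 M hK _ _) (delta_symbol M 3 0) (D4_J3 M)

variable {P : FMod k → Prop} (hP : Devissable P)
include hP

lemma P_J1 (a : k) {p : ℕ} (hp : p ≤ 3) : P ((freeF k ι p).quot (J1 M a)) :=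
  hP.quot (i := 0) hK hasType_bot hasType_bot (delta_symbol M 0 a) (D1_J0 M a) (by omega)
    (hP.bot (by omega)) (hP.bot (by omega))

lemma P_J2 (a b : k) {p : ℕ} (hp : p ≤ 2) : P ((freeF k ι p).quot (J2 M a b)) :=
  hP.quot (i := 1) hK (type_J1 M hK a) (type_J1 M hK a) (delta_symbol M 1 b) (D2_J1 M a b)
    (by omega) (P_J1 M hK hP a (by omega)) (P_J1 M hK hP a (by omega))

lemma P_J3 (a b : k) {p : ℕ} (hp : p ≤ 1) : P ((freeF k ι p).quot (J3 M a b)) :=
  hP.quot (i := 2) hK (type_J2 M hK a b) (type_J2 M hK _ _) (delta_symbol M 2 0) (D3_J2 M a b)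
    (by omega) (P_J2 M hK hP _ _ (by omega)) (P_J2 M hK hP _ _ (by omega))

lemma P_J4 : P ((freeF k ι (0 : ℕ)).quot (J4 M)) :=
  hP.quot (i := 3) hK (type_J3 M hK 0 0) (type_J3 M hK _ _) (delta_symbol M 3 0) (D4_J3 M)
    (by omega) (P_J3 M hK hP _ _ (by omega)) (P_J3 M hK hP _ _ (by omega))

end Delta

theorem Devissable.triv {P : FMod k → Prop} (hP : Devissable P) (hK : PBWKey k) (X : Type)
    [AddCommGroup X] [Module k X] [Module (U k) X] [IsScalarTower k (U k) X]
    [Module.Finite k X] : P (triv k X) := by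
  classical
  let b := Module.finBasis k X
  let M : U k →ₐ[k] Matrix (Fin (Module.finrank k X)) (Fin (Module.finrank k X)) k :=
    (LinearMap.toMatrixAlgEquiv b).toAlgHom.comp (Algebra.lsmul k k X)
  have hM : ∀ z c, z • b c = ∑ a, M z a c • b a := fun z c => by
    conv_lhs => rw [← b.sum_repr (z • b c)]
    simp [M, LinearMap.toMatrixAlgEquiv_apply]
  let π : (Fin (Module.finrank k X) → U k) →ₗ[U k] X :=
    Fintype.linearCombination (U k) b
  have hπ : ∀ u, π u = ∑ a, u a • b a := fun u => Fintype.linearCombination_apply _ _ _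
  have hsub : ∀ (r r' : U k) (x : X), (r - r') • x = r • x - r' • x := fun r r' x =>
    sub_smul r r' x
  have hδ : ∀ z u, π (delta M z 0 u) = 0 := fun z u => by
    simp only [hπ, delta_apply, zero_smul, sub_zero, hsub, Finset.sum_sub_distrib, mul_smul,
      Finset.sum_smul, smul_assoc]
    simp only [hM z, Finset.smul_sum]
    rw [Finset.sum_comm, sub_eq_zero]
    exact Finset.sum_congr rfl fun _ _ => Finset.sum_congr rfl fun _ _ => smul_comm _ _ _
  have hle : J4 M ≤ LinearMap.ker π := by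
    refine sup_le (sup_le (sup_le (sup_le bot_le ?_) ?_) ?_) ?_ <;>
    · rintro _ ⟨u, rfl⟩; exact hδ _ u
  have hker : ∀ (n : ℕ) u, (∀ a, u a ∈ F k n) → π u = 0 → u ∈ J4 M := by
    intro n
    induction n with
    | zero =>
      intro u hu h
      choose c hc using fun a => mem_F_zero (hu a)
      have : ∀ a, c a = 0 := by
        apply Fintype.linearIndependent_iff.1 b.linearIndependent
        simpa [hπ, hc] using h
      have : u = 0 := funext fun a => by simp [hc, this]
      simp [this]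
    | succ n ih =>
      intro u hu h
      obtain ⟨j, hj, -, h'⟩ := (type_J4 M hK).ge _ u fun a => F_le_L_four (by omega) (hu a)
      have := ih (u - j) (fun a => by simpa using h' a)
        (by rw [map_sub, h, LinearMap.mem_ker.1 (hle hj), sub_zero])
      simpa using add_mem this hj
  refine hP.iso _ (Vale.Agent.P176.triv k X) ((J4 M).liftQ π hle) ?_ ?_ ?_ (P_J4 M hK hP)
  · rintro n _ ⟨q, hq, rfl⟩
    change π q ∈ (if n < 0 then ⊥ else ⊤ : AddSubgroup X)
    split_ifs with hn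
    · have : q = 0 := funext fun a => by
        have := mem_freeF.1 hq a
        rw [F_neg (by omega)] at this
        exact this
      rw [this]
      exact AddSubgroup.mem_bot.2 (map_zero π)
    · trivial
  · refine LinearMap.ker_eq_bot.1 (Submodule.ker_liftQ_eq_bot (J4 M) π hle fun u hu => ?_)
    obtain ⟨n, hn⟩ := exists_F u
    exact hker n u hn hu
  · intro n x hx
    change x ∈ (if n < 0 then ⊥ else ⊤ : AddSubgroup X) at hx
    split_ifs at hx with hn
    · exact ⟨0, zero_mem _, (map_zero ((J4 M).liftQ π hle)).trans (AddSubgroup.mem_bot.1 hx).symm⟩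
    · refine ⟨(J4 M).mkQ fun a => algebraMap k (U k) (b.repr x a), ⟨_, mem_freeF.2 fun a =>
        algebraMap_mem_F (by omega) _, rfl⟩, ?_⟩
      change π _ = x
      simp only [hπ, algebraMap_smul]
      exact b.sum_repr x

end Vale.Agent.P176
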