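import Mathlib

/-!
Homological lemmas over an arbitrary ring, phrased with unbundled modules.
-/

namespace Vale.Agent.P176

open CategoryTheory Abelian

variable {Γ : Type} [Ring Γ]

section
variable (Γ) (M : Type) [AddCommGroup M] [Module Γ M]

/-- finite projective dimension -/
def FinPD : Prop := ∃ d, HasProjectiveDimensionLT (ModuleCat.of Γ M) d

/-- vanishing of `Ext^j(M, S)` -/
def Van (S : Type) [AddCommGroup S] [Module Γ S] (j : ℕ) : Prop :=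
  ∀ e : Ext (ModuleCat.of Γ M) (ModuleCat.of Γ S) j, e = 0

/-- finite projective dimension and no higher `Ext` into `S` -/
def Good (S : Type) [AddCommGroup S] [Module Γ S] : Prop :=
  FinPD Γ M ∧ ∀ j, Van Γ M S (j + 1)

end

variable {M₁ M₂ M₃ S : Type} [AddCommGroup M₁] [Module Γ M₁] [AddCommGroup M₂] [Module Γ M₂]
  [AddCommGroup M₃] [Module Γ M₃] [AddCommGroup S] [Module Γ S]

/-- short exact sequences of modules -/
structure SES (f : M₁ →ₗ[Γ] M₂) (g : M₂ →ₗ[Γ] M₃) : Prop where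
  inj : Function.Injective f
  exact : Function.Exact f g
  surj : Function.Surjective g

variable {f : M₁ →ₗ[Γ] M₂} {g : M₂ →ₗ[Γ] M₃}

/-- the short complex -/
abbrev SES.sc (h : SES f g) : ShortComplex (ModuleCat.{0} Γ) :=
  ModuleCat.shortComplexOfCompEqZero f g h.exact.linearMap_comp_eq_zero

lemma SES.shortExact (h : SES f g) : h.sc.ShortExact :=
  ModuleCat.shortComplex_shortExact _ h.exact h.inj h.surj

lemma SES.finPD₃ (h : SES f g) (h₁ : FinPD Γ M₁) (h₂ : FinPD Γ M₂) : FinPD Γ M₃ := by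
  obtain ⟨a, ha⟩ := h₁
  obtain ⟨b, hb⟩ := h₂
  exact ⟨a + b + 1, h.shortExact.hasProjectiveDimensionLT_X₃ (a + b)
    (hasProjectiveDimensionLT_of_ge (ModuleCat.of Γ M₁) a _ (by omega))
    (hasProjectiveDimensionLT_of_ge (ModuleCat.of Γ M₂) b _ (by omega))⟩

lemma SES.finPD₂ (h : SES f g) (h₁ : FinPD Γ M₁) (h₃ : FinPD Γ M₃) : FinPD Γ M₂ := by
  obtain ⟨a, ha⟩ := h₁
  obtain ⟨b, hb⟩ := h₃
  exact ⟨a + b, h.shortExact.hasProjectiveDimensionLT_X₂ (a + b)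
    (hasProjectiveDimensionLT_of_ge (ModuleCat.of Γ M₁) a _ (by omega))
    (hasProjectiveDimensionLT_of_ge (ModuleCat.of Γ M₃) b _ (by omega))⟩

/-- a retract in the module category -/
noncomputable def retractOf (i : M₁ →ₗ[Γ] M₂) (r : M₂ →ₗ[Γ] M₁) (h : ∀ x, r (i x) = x) :
    Retract (ModuleCat.of Γ M₁) (ModuleCat.of Γ M₂) where
  i := ModuleCat.ofHom i
  r := ModuleCat.ofHom r
  retract := by ext x; simpa using h x

lemma FinPD.of_retract (i : M₁ →ₗ[Γ] M₂) (r : M₂ →ₗ[Γ] M₁) (h : ∀ x, r (i x) = x)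
    (h₂ : FinPD Γ M₂) : FinPD Γ M₁ := by
  obtain ⟨b, hb⟩ := h₂
  exact ⟨b, (retractOf i r h).hasProjectiveDimensionLT b⟩

lemma Van.of_retract (i : M₁ →ₗ[Γ] M₂) (r : M₂ →ₗ[Γ] M₁) (h : ∀ x, r (i x) = x) {j : ℕ}
    (h₂ : Van Γ M₂ S j) : Van Γ M₁ S j := by
  intro x
  have hr := (retractOf i r h).retract
  rw [← x.mk₀_id_comp, ← hr, ← Ext.mk₀_comp_mk₀, Ext.comp_assoc_of_second_deg_zero,
    h₂ ((Ext.mk₀ (retractOf i r h).r).comp x (zero_add j)), Ext.comp_zero]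

lemma Good.of_retract (i : M₁ →ₗ[Γ] M₂) (r : M₂ →ₗ[Γ] M₁) (h : ∀ x, r (i x) = x)
    (h₂ : Good Γ M₂ S) : Good Γ M₁ S :=
  ⟨h₂.1.of_retract i r h, fun j => (h₂.2 j).of_retract i r h⟩

lemma Good.of_equiv (e : M₁ ≃ₗ[Γ] M₂) (h : Good Γ M₂ S) : Good Γ M₁ S :=
  h.of_retract e.toLinearMap e.symm.toLinearMap (by simp)

lemma FinPD.prod (h₁ : FinPD Γ M₁) (h₂ : FinPD Γ M₂) : FinPD Γ (M₁ × M₂) :=
  SES.finPD₂ (f := LinearMap.inl Γ M₁ M₂) (g := LinearMap.snd Γ M₁ M₂)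
    ⟨LinearMap.inl_injective, Function.Exact.inl_snd, LinearMap.snd_surjective⟩ h₁ h₂

lemma FinPD.of_subsingleton [Subsingleton M₁] : FinPD Γ M₁ :=
  ⟨0, (ModuleCat.isZero_of_subsingleton (ModuleCat.of Γ M₁)).hasProjectiveDimensionLT_zero⟩

lemma Good.of_projective [Module.Projective Γ M₁] : Good Γ M₁ S :=
  ⟨⟨1, inferInstance⟩, fun _ e => e.eq_zero_of_projective⟩

/-- `Ext^{j+1}(M₃,S) = 0` and `Ext^j(M₂,S) = 0` force `Ext^j(M₁,S)=0` -/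
lemma SES.van₁ (h : SES f g) {j : ℕ} (h₂ : Van Γ M₂ S j) (h₃ : Van Γ M₃ S (j + 1)) :
    Van Γ M₁ S j := by
  intro x
  obtain ⟨x₂, rfl⟩ := Ext.contravariant_sequence_exact₁ h.shortExact _ x (add_comm _ _) (h₃ _)
  rw [h₂ x₂, Ext.comp_zero]

lemma SES.van₃ (h : SES f g) {j : ℕ} (h₁ : Van Γ M₁ S j) (h₂ : Van Γ M₂ S (j + 1)) :
    Van Γ M₃ S (j + 1) := by
  intro x
  obtain ⟨x₁, rfl⟩ := Ext.contravariant_sequence_exact₃ h.shortExact _ x (h₂ _) (add_comm _ _)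
  rw [h₁ x₁, Ext.comp_zero]

lemma SES.van₃_one (h : SES f g) (hext : ∀ φ : M₁ →ₗ[Γ] S, ∃ ψ : M₂ →ₗ[Γ] S, ψ ∘ₗ f = φ)
    (h₂ : Van Γ M₂ S 1) : Van Γ M₃ S 1 := by
  intro x
  obtain ⟨x₁, rfl⟩ := Ext.contravariant_sequence_exact₃ h.shortExact _ x (h₂ _) (add_zero 1)
  obtain ⟨φ, rfl⟩ := (Ext.mk₀_bijective _ _).2 x₁
  obtain ⟨ψ, hψ⟩ := hext φ.hom
  have : φ = h.sc.f ≫ ModuleCat.ofHom ψ := by
    ext x; simpa using (LinearMap.congr_fun hψ x).symm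
  rw [this, ← Ext.mk₀_comp_mk₀]
  exact h.shortExact.extClass_comp_assoc _

lemma SES.extend (h : SES f g) (h₃ : Van Γ M₃ S 1) (φ : M₁ →ₗ[Γ] S) :
    ∃ ψ : M₂ →ₗ[Γ] S, ψ ∘ₗ f = φ := by
  obtain ⟨x₂, hx⟩ := Ext.contravariant_sequence_exact₁ h.shortExact (ModuleCat.of Γ S)
    (Ext.mk₀ (ModuleCat.ofHom φ)) (add_zero 1) (h₃ _)
  obtain ⟨ψ, rfl⟩ := (Ext.mk₀_bijective _ _).2 x₂
  rw [Ext.mk₀_comp_mk₀] at hx
  have := (Ext.mk₀_bijective _ _).1 hx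
  exact ⟨ψ.hom, by simpa using congrArg ModuleCat.Hom.hom this⟩

lemma SES.good₃ (h : SES f g) (hext : ∀ φ : M₁ →ₗ[Γ] S, ∃ ψ : M₂ →ₗ[Γ] S, ψ ∘ₗ f = φ)
    (h₁ : Good Γ M₁ S) (h₂ : Good Γ M₂ S) : Good Γ M₃ S := by
  refine ⟨h.finPD₃ h₁.1 h₂.1, fun j => ?_⟩
  cases j with
  | zero => exact h.van₃_one hext (h₂.2 0)
  | succ j => exact h.van₃ (h₁.2 j) (h₂.2 (j + 1))

/-- the submodule spanned by `𝔫 • M` -/
def rad (𝔫 : Set Γ) (M : Type) [AddCommGroup M] [Module Γ M] : Submodule Γ M :=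
  Submodule.span Γ {x | ∃ ν ∈ 𝔫, ∃ m : M, ν • m = x}

/-- the elements of `J` killed by a set `𝔫` stable under right multiplication -/
def ann (𝔫 : Set Γ) (h𝔫 : ∀ ν ∈ 𝔫, ∀ γ : Γ, ν * γ ∈ 𝔫) (J : Type) [AddCommGroup J]
    [Module Γ J] : Submodule Γ J where
  carrier := {x | ∀ ν ∈ 𝔫, ν • x = 0}
  add_mem' := by
    intro a b ha hb ν hν
    rw [smul_add, ha ν hν, hb ν hν, add_zero]
  zero_mem' := by intro ν _; simp
  smul_mem' := by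
    intro c x hx ν hν
    rw [← mul_smul]; exact hx _ (h𝔫 ν hν c)

lemma ann_kills_rad {𝔫 : Set Γ} {h𝔫} {J : Type} [AddCommGroup J] [Module Γ J]
    (φ : M₁ →ₗ[Γ] ann 𝔫 h𝔫 J) {x : M₁} (hx : x ∈ rad 𝔫 M₁) : φ x = 0 := by
  have : rad 𝔫 M₁ ≤ LinearMap.ker φ := by
    rw [rad, Submodule.span_le]
    rintro _ ⟨ν, hν, m, rfl⟩
    simp only [SetLike.mem_coe, LinearMap.mem_ker, map_smul]
    exact Subtype.ext ((φ m).2 ν hν)
  exact this hx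

lemma extend_to_ann {𝔫 : Set Γ} {h𝔫} {J : Type} [AddCommGroup J] [Module Γ J]
    [hJ : Module.Injective Γ J] (f : M₁ →ₗ[Γ] M₂)
    (H : ∀ x, f x ∈ rad 𝔫 M₂ → x ∈ rad 𝔫 M₁) (φ : M₁ →ₗ[Γ] ann 𝔫 h𝔫 J) :
    ∃ ψ : M₂ →ₗ[Γ] ann 𝔫 h𝔫 J, ψ ∘ₗ f = φ := by
  set q := (rad 𝔫 M₂).mkQ ∘ₗ f with hq
  have hker : LinearMap.ker q ≤ LinearMap.ker ((ann 𝔫 h𝔫 J).subtype ∘ₗ φ) := by
    intro x hx
    have : f x ∈ rad 𝔫 M₂ := by simpa [hq] using hx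
    simp [ann_kills_rad φ (H x this)]
  obtain ⟨h, hh⟩ := hJ.out ((LinearMap.ker q).liftQ q le_rfl)
    (LinearMap.ker_eq_bot.1 (Submodule.ker_liftQ_eq_bot _ _ _ le_rfl))
    ((LinearMap.ker q).liftQ ((ann 𝔫 h𝔫 J).subtype ∘ₗ φ) hker)
  refine ⟨LinearMap.codRestrict _ (h ∘ₗ (rad 𝔫 M₂).mkQ) ?_, ?_⟩
  · intro m ν hν
    rw [← map_smul, LinearMap.comp_apply]
    have : (rad 𝔫 M₂).mkQ (ν • m) = 0 := by
      rw [Submodule.mkQ_apply, Submodule.Quotient.mk_eq_zero]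
      exact Submodule.subset_span ⟨ν, hν, m, rfl⟩
    rw [this, map_zero]
  · refine LinearMap.ext fun x => Subtype.ext ?_
    exact hh (Submodule.Quotient.mk x)

lemma exists_injective (M : Type) [AddCommGroup M] [Module Γ M] :
    ∃ (J : Type) (_ : AddCommGroup J) (_ : Module Γ J) (_ : Module.Injective Γ J)
      (ι : M →ₗ[Γ] J), Function.Injective ι := by
  obtain ⟨p⟩ := EnoughInjectives.presentation (ModuleCat.of Γ M)
  have := p.injective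
  have := p.mono
  exact ⟨p.J, inferInstance, inferInstance, Module.injective_module_of_injective_object Γ p.J,
    p.f.hom, (ModuleCat.mono_iff_injective p.f).1 inferInstance⟩

lemma le_pd_of_not_van {j : ℕ} (h : ¬ Van Γ M₁ S j) :
    (j : WithBot ℕ∞) ≤ projectiveDimension (ModuleCat.of Γ M₁) := by
  rw [projectiveDimension_ge_iff]
  intro h'
  exact h fun e => e.eq_zero_of_hasProjectiveDimensionLT j le_rfl

lemma FinPD.ne_top (h : FinPD Γ M₁) : projectiveDimension (ModuleCat.of Γ M₁) ≠ ⊤ := by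
  obtain ⟨d, hd⟩ := h
  exact (projectiveDimension_ne_top_iff _).2 ⟨d, hasProjectiveDimensionLT_of_ge _ d _ (by omega)⟩

end Vale.Agent.P176
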