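import Vale.Agent.P176.Gsig
import Vale.Agent.P176.Homol

/-!
Filtered modules over the enveloping algebra and the modules obtained from them through a ring
map into filtered matrices.
-/

namespace Vale.Agent.P176

variable (k : Type) [Field k]

/-- filtered modules -/
structure FMod where
  /-- carrier -/
  Q : Type
  [acg : AddCommGroup Q]
  [modU : Module (U k) Q]
  /-- filtration -/
  G : ℤ → AddSubgroup Q
  smul_mem : ∀ {a b : ℤ} {u : U k} {q : Q}, u ∈ F k a → q ∈ G b → u • q ∈ G (a + b)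

attribute [instance] FMod.acg FMod.modU

/-- a ring map into filtered matrices -/
structure Rep (Γ : Type) [Ring Γ] (I : Type) [Fintype I] [DecidableEq I] where
  /-- degrees of the indices -/
  deg : I → ℤ
  /-- the ring map -/
  ρ : Γ →+* Matrix I I (U k)
  mem : ∀ γ i j, ρ γ i j ∈ F k (deg i - deg j)

variable {k} {Γ : Type} [Ring Γ] {I : Type} [Fintype I] [DecidableEq I]

/-- vectors whose entries lie in the prescribed filtration steps -/
def MM (r : Rep k Γ I) (Q : FMod k) : AddSubgroup (I → Q.Q) where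
  carrier := {w | ∀ i, w i ∈ Q.G (r.deg i)}
  add_mem' ha hb i := add_mem (ha i) (hb i)
  zero_mem' _ := zero_mem _
  neg_mem' ha i := neg_mem (ha i)

noncomputable instance (r : Rep k Γ I) (Q : FMod k) : SMul Γ (MM r Q) where
  smul γ w := ⟨fun i => ∑ j, r.ρ γ i j • w.1 j, fun i => sum_mem fun j _ => by
    have := Q.smul_mem (r.mem γ i j) (w.2 j)
    rwa [sub_add_cancel] at this⟩

lemma MM_smul_apply {r : Rep k Γ I} {Q : FMod k} (γ : Γ) (w : MM r Q) (i : I) :
    (γ • w).1 i = ∑ j, r.ρ γ i j • w.1 j := rfl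

lemma MM_ext {r : Rep k Γ I} {Q : FMod k} {w w' : MM r Q} (h : ∀ i, w.1 i = w'.1 i) : w = w' :=
  Subtype.ext (funext h)

noncomputable instance (r : Rep k Γ I) (Q : FMod k) : Module Γ (MM r Q) where
  one_smul w := MM_ext fun i => by simp [MM_smul_apply, Matrix.one_apply]
  mul_smul a b w := MM_ext fun i => by
    simp_rw [MM_smul_apply, map_mul, Matrix.mul_apply, Finset.smul_sum, Finset.sum_smul, mul_smul]
    rw [Finset.sum_comm]
  smul_zero a := MM_ext fun i => by simp [MM_smul_apply]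
  smul_add a v w := MM_ext fun i => by simp [MM_smul_apply, Finset.sum_add_distrib]
  add_smul a b w := MM_ext fun i => by simp [MM_smul_apply, add_smul, Finset.sum_add_distrib]
  zero_smul w := MM_ext fun i => by simp [MM_smul_apply]

/-- functoriality in the filtered module -/
noncomputable def MMmap (r : Rep k Γ I) {Q Q' : FMod k} (φ : Q.Q →ₗ[U k] Q'.Q)
    (hφ : ∀ n q, q ∈ Q.G n → φ q ∈ Q'.G n) : MM r Q →ₗ[Γ] MM r Q' where
  toFun w := ⟨fun i => φ (w.1 i), fun i => hφ _ _ (w.2 i)⟩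
  map_add' v w := MM_ext fun i => by simp
  map_smul' γ w := MM_ext fun i => by simp [MM_smul_apply]

@[simp] lemma MMmap_apply (r : Rep k Γ I) {Q Q' : FMod k} (φ : Q.Q →ₗ[U k] Q'.Q) (hφ)
    (w : MM r Q) (i : I) : (MMmap r φ hφ w).1 i = φ (w.1 i) := rfl

lemma MMmap_ses (r : Rep k Γ I) {Q₁ Q₂ Q₃ : FMod k} (φ : Q₁.Q →ₗ[U k] Q₂.Q)
    (ψ : Q₂.Q →ₗ[U k] Q₃.Q) (hφ) (hψ) (hinj : Function.Injective φ)
    (hzero : ∀ q, ψ (φ q) = 0)
    (hex : ∀ n, ∀ q ∈ Q₂.G n, ψ q = 0 → ∃ q' ∈ Q₁.G n, φ q' = q)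
    (hsurj : ∀ n, ∀ q ∈ Q₃.G n, ∃ q' ∈ Q₂.G n, ψ q' = q) :
    SES (MMmap r φ hφ) (MMmap r ψ hψ) where
  inj v w h := MM_ext fun i => hinj (congrArg (fun x : MM r Q₂ => x.1 i) h)
  exact w := by
    constructor
    · intro h
      choose q hq hq' using fun i => hex _ _ (w.2 i) (congrArg (fun x : MM r Q₃ => x.1 i) h)
      exact ⟨⟨q, hq⟩, MM_ext hq'⟩
    · rintro ⟨v, rfl⟩
      exact MM_ext fun i => hzero _
  surj w := by
    choose q hq hq' using fun i => hsurj _ _ (w.2 i)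
    exact ⟨⟨q, hq⟩, MM_ext hq'⟩

/-- a filtered isomorphism induces an isomorphism -/
noncomputable def MMequiv (r : Rep k Γ I) {Q₁ Q₂ : FMod k} (φ : Q₁.Q →ₗ[U k] Q₂.Q)
    (hφ : ∀ n q, q ∈ Q₁.G n → φ q ∈ Q₂.G n) (hinj : Function.Injective φ)
    (hsurj : ∀ n, ∀ q ∈ Q₂.G n, ∃ q' ∈ Q₁.G n, φ q' = q) : MM r Q₁ ≃ₗ[Γ] MM r Q₂ :=
  LinearEquiv.ofBijective (MMmap r φ hφ)
    ⟨fun v w h => MM_ext fun i => hinj (congrArg (fun x : MM r Q₂ => x.1 i) h), fun w => by
      choose q hq hq' using fun i => hsurj _ _ (w.2 i)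
      exact ⟨⟨q, hq⟩, MM_ext hq'⟩⟩

section Blocks

variable {I₁ I₂ : Type} [Fintype I₁] [DecidableEq I₁] [Fintype I₂] [DecidableEq I₂]

/-- block lower triangular representations -/
structure IsBlock (r : Rep k Γ (I₁ ⊕ I₂)) (r₁ : Rep k Γ I₁) (r₂ : Rep k Γ I₂) : Prop where
  deg₁ : ∀ i, r.deg (Sum.inl i) = r₁.deg i
  deg₂ : ∀ i, r.deg (Sum.inr i) = r₂.deg i
  ρ₁₁ : ∀ γ i j, r.ρ γ (Sum.inl i) (Sum.inl j) = r₁.ρ γ i j
  ρ₁₂ : ∀ γ i j, r.ρ γ (Sum.inl i) (Sum.inr j) = 0
  ρ₂₂ : ∀ γ i j, r.ρ γ (Sum.inr i) (Sum.inr j) = r₂.ρ γ i j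

variable {r : Rep k Γ (I₁ ⊕ I₂)} {r₁ : Rep k Γ I₁} {r₂ : Rep k Γ I₂}

/-- inclusion of the second block -/
noncomputable def IsBlock.incl (h : IsBlock r r₁ r₂) (Q : FMod k) : MM r₂ Q →ₗ[Γ] MM r Q where
  toFun w := ⟨Sum.elim 0 w.1, by
    rintro (i | i)
    · exact zero_mem _
    · rw [h.deg₂]; exact w.2 i⟩
  map_add' v w := MM_ext <| by rintro (i | i) <;> simp
  map_smul' γ w := MM_ext <| by
    rintro (i | i) <;> simp [MM_smul_apply, Fintype.sum_sum_type, h.ρ₁₂, h.ρ₂₂]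

/-- projection to the first block -/
noncomputable def IsBlock.proj (h : IsBlock r r₁ r₂) (Q : FMod k) : MM r Q →ₗ[Γ] MM r₁ Q where
  toFun w := ⟨fun i => w.1 (Sum.inl i), fun i => by rw [← h.deg₁]; exact w.2 _⟩
  map_add' v w := MM_ext fun i => by simp
  map_smul' γ w := MM_ext fun i => by
    simp [MM_smul_apply, Fintype.sum_sum_type, h.ρ₁₂, h.ρ₁₁]

lemma IsBlock.ses (h : IsBlock r r₁ r₂) (Q : FMod k) : SES (h.incl Q) (h.proj Q) where
  inj v w e := MM_ext fun i => congrArg (fun x : MM r Q => x.1 (Sum.inr i)) e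
  exact w := by
    constructor
    · intro e
      refine ⟨⟨fun i => w.1 (Sum.inr i), fun i => by rw [← h.deg₂]; exact w.2 _⟩, MM_ext ?_⟩
      rintro (i | i)
      · exact (congrArg (fun x : MM r₁ Q => x.1 i) e).symm
      · rfl
    · rintro ⟨v, rfl⟩
      exact MM_ext fun i => rfl
  surj w := ⟨⟨Sum.elim w.1 0, by
    rintro (i | i)
    · rw [h.deg₁]; exact w.2 i
    · exact zero_mem _⟩, MM_ext fun i => rfl⟩

end Blocks

variable (k) in
/-- the free module on a finite set of generators of degree `p` -/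
@[reducible] noncomputable def freeF (ι : Type) (p : ℤ) : FMod k where
  Q := ι → U k
  G n := AddSubgroup.pi Set.univ fun _ => (F k (n - p)).toAddSubgroup
  smul_mem := by
    intro a b u q hu hq i _
    have := mul_mem_F hu (hq i trivial)
    rwa [← add_sub_assoc] at this

lemma mem_freeF {ι : Type} {p n : ℤ} {q : ι → U k} :
    q ∈ (freeF k ι p).G n ↔ ∀ i, q i ∈ F k (n - p) :=
  ⟨fun h i => h i trivial, fun h i _ => h i⟩

/-- projectivity criterion: the column `i₀` of `ρ` has a linear section -/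
lemma projective_MM (r : Rep k Γ I) (i₀ : I) (ι : Type) [Fintype ι] [DecidableEq ι]
    (s : MM r (freeF k Unit (r.deg i₀)) →ₗ[Γ] Γ) (hs : ∀ w i, r.ρ (s w) i i₀ = w.1 i ()) :
    Module.Projective Γ (MM r (freeF k ι (r.deg i₀))) := by
  let comp : ι → MM r (freeF k ι (r.deg i₀)) →ₗ[Γ] MM r (freeF k Unit (r.deg i₀)) := fun a =>
    MMmap r (LinearMap.pi fun _ => LinearMap.proj (R := U k) (φ := fun _ => U k) a)
      (fun n q hq => mem_freeF.2 fun _ => mem_freeF.1 hq a)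
  let t : (ι → Γ) →ₗ[Γ] MM r (freeF k ι (r.deg i₀)) :=
    { toFun := fun γ => ⟨fun i a => r.ρ (γ a) i i₀, fun i => mem_freeF.2 fun a => r.mem _ _ _⟩
      map_add' := fun γ γ' => MM_ext fun i => funext fun a => by
        change r.ρ (γ a + γ' a) i i₀ = r.ρ (γ a) i i₀ + r.ρ (γ' a) i i₀
        simp
      map_smul' := fun c γ => MM_ext fun i => funext fun a => by
        change r.ρ (c * γ a) i i₀ = (∑ j, r.ρ c i j • fun a => r.ρ (γ a) j i₀) a
        simp [Matrix.mul_apply, Finset.sum_apply] }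
  refine Module.Projective.of_split (LinearMap.pi fun a => s ∘ₗ comp a) t ?_
  refine LinearMap.ext fun w => MM_ext fun i => funext fun a => ?_
  exact hs (comp a w) i

variable (k) in
/-- a module with the trivial filtration concentrated in degree zero -/
@[reducible] noncomputable def triv (X : Type) [AddCommGroup X] [Module (U k) X] : FMod k where
  Q := X
  G n := if n < 0 then ⊥ else ⊤
  smul_mem := by
    intro a b u q hu hq
    by_cases ha : a < 0
    · rw [F_neg ha] at hu; simp at hu; simp [hu]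
    by_cases hb : b < 0
    · simp [hb] at hq; simp [hq]
    rw [if_neg (by omega)]; trivial

/-- quotient filtration -/
@[reducible] noncomputable def FMod.quot (Q : FMod k) (J : Submodule (U k) Q.Q) : FMod k where
  Q := Q.Q ⧸ J
  G n := (Q.G n).map J.mkQ.toAddMonoidHom
  smul_mem := by
    rintro a b u _ hu ⟨q, hq, rfl⟩
    exact ⟨u • q, Q.smul_mem hu hq, by simp⟩

end Vale.Agent.P176
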