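import Vale.Agent.P176.Devis

/-!
The finite-dimensional algebra `Gam` and its representations by filtered matrices.
-/

namespace Vale.Agent.P176

open Matrix

variable (k : Type) [Field k]

/-- index set of the two-fold copies -/
abbrev V5 : Type := Fin 5 × Fin 2

/-- entrywise application of `g` -/
noncomputable def G5 : Matrix (Fin 5) (Fin 5) (U k) →ₐ[k] Matrix V5 V5 (U k) :=
  (Matrix.compAlgEquiv (Fin 5) (Fin 2) (U k) k).toAlgHom.comp (g k).mapMatrix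

/-- block diagonal matrix with blocks `sig` -/
noncomputable def S5 : Matrix V5 V5 (U k) :=
  Matrix.compAlgEquiv (Fin 5) (Fin 2) (U k) k (Matrix.diagonal fun _ => sig k)

variable {k}

lemma G5_apply (b : Matrix (Fin 5) (Fin 5) (U k)) (v w : V5) :
    G5 k b v w = g k (b v.1 w.1) v.2 w.2 := rfl

lemma G5_mul_S5_apply (b : Matrix (Fin 5) (Fin 5) (U k)) (v w : V5) :
    (G5 k b * S5 k) v w = (g k (b v.1 w.1) * sig k) v.2 w.2 := by
  have : G5 k b * S5 k = Matrix.compAlgEquiv (Fin 5) (Fin 2) (U k) k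
      ((g k).mapMatrix b * Matrix.diagonal fun _ => sig k) := by
    rw [map_mul]; rfl
  rw [this]
  exact congrFun (congrFun (Matrix.mul_diagonal (fun _ : Fin 5 => sig k) ((g k).mapMatrix b)
    v.1 w.1) v.2) w.2

lemma S5_comm (b : Matrix (Fin 5) (Fin 5) (U k)) : S5 k * G5 k b = G5 k b * S5 k := by
  have h : (Matrix.diagonal fun _ => sig k) * (g k).mapMatrix b =
      (g k).mapMatrix b * Matrix.diagonal fun _ : Fin 5 => sig k := by
    ext1 i j
    rw [Matrix.mul_diagonal, Matrix.diagonal_mul]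
    exact sig_comm _
  have := congrArg (Matrix.compAlgEquiv (Fin 5) (Fin 2) (U k) k) h
  rwa [map_mul, map_mul] at this

/-- action on the translated part -/
noncomputable def Khat (b₁ b₀ δ : Matrix (Fin 5) (Fin 5) (U k)) :
    Matrix (V5 ⊕ V5) (V5 ⊕ V5) (U k) :=
  fromBlocks (G5 k b₀) (G5 k δ * S5 k) 0 (G5 k b₁)

lemma Khat_mul (b₁ b₀ δ b₁' b₀' δ' : Matrix (Fin 5) (Fin 5) (U k)) :
    Khat b₁ b₀ δ * Khat b₁' b₀' δ' = Khat (b₁ * b₁') (b₀ * b₀') (δ * b₁' + b₀ * δ') := by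
  simp only [Khat, fromBlocks_multiply, map_mul, map_add, Matrix.mul_zero, Matrix.zero_mul,
    add_zero, zero_add, Matrix.add_mul, Matrix.mul_assoc, S5_comm]
  rw [add_comm]

lemma Khat_add (b₁ b₀ δ b₁' b₀' δ' : Matrix (Fin 5) (Fin 5) (U k)) :
    Khat b₁ b₀ δ + Khat b₁' b₀' δ' = Khat (b₁ + b₁') (b₀ + b₀') (δ + δ') := by
  simp only [Khat, fromBlocks_add, map_add, Matrix.add_mul, add_zero]

lemma Khat_zero : Khat (k := k) 0 0 0 = 0 := by simp [Khat]

variable (k) in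
/-- the ambient ring -/
abbrev Amb : Type :=
  Matrix (Fin 5 ⊕ Fin 5) (Fin 5 ⊕ Fin 5) (U k) × Matrix (Fin 5 ⊕ V5 ⊕ V5) (Fin 5 ⊕ V5 ⊕ V5) (U k)

/-- parametrization of the elements of the algebra -/
noncomputable def mkG (b₁ b₀ δ : Matrix (Fin 5) (Fin 5) (U k))
    (ν : Matrix (V5 ⊕ V5) (Fin 5) (U k)) : Amb k :=
  (fromBlocks b₁ 0 δ b₀, fromBlocks b₀ 0 ν (Khat b₁ b₀ δ))

lemma mkG_mul (b₁ b₀ δ b₁' b₀' δ' : Matrix (Fin 5) (Fin 5) (U k))
    (ν ν' : Matrix (V5 ⊕ V5) (Fin 5) (U k)) :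
    mkG b₁ b₀ δ ν * mkG b₁' b₀' δ' ν' =
      mkG (b₁ * b₁') (b₀ * b₀') (δ * b₁' + b₀ * δ') (ν * b₀' + Khat b₁ b₀ δ * ν') := by
  simp only [mkG, Prod.mk_mul_mk, fromBlocks_multiply, Matrix.mul_zero, Matrix.zero_mul,
    add_zero, zero_add, Khat_mul]

lemma mkG_add (b₁ b₀ δ b₁' b₀' δ' : Matrix (Fin 5) (Fin 5) (U k))
    (ν ν' : Matrix (V5 ⊕ V5) (Fin 5) (U k)) :
    mkG b₁ b₀ δ ν + mkG b₁' b₀' δ' ν' = mkG (b₁ + b₁') (b₀ + b₀') (δ + δ') (ν + ν') := by
  simp only [mkG, Prod.mk_add_mk, fromBlocks_add, add_zero, Khat_add]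

/-- degrees -/
def d5 : Fin 5 → ℤ := fun n => (n : ℕ)
/-- degrees on the translated part -/
def dK : V5 ⊕ V5 → ℤ := Sum.elim (fun v => d5 v.1 + 1) (fun v => d5 v.1)

/-- filtered matrices -/
def IsFM {I J : Type} (dI : I → ℤ) (dJ : J → ℤ) (a : Matrix I J (U k)) : Prop :=
  ∀ i j, a i j ∈ F k (dI i - dJ j)

lemma IsFM.mul {I J K : Type} [Fintype J] {dI : I → ℤ} {dJ : J → ℤ} {dK : K → ℤ}
    {a : Matrix I J (U k)} {b : Matrix J K (U k)} (ha : IsFM dI dJ a) (hb : IsFM dJ dK b) :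
    IsFM dI dK (a * b) := fun i l => by
  rw [Matrix.mul_apply]
  refine Submodule.sum_mem _ fun j _ => ?_
  simpa using mul_mem_F (ha i j) (hb j l)

lemma IsFM.add {I J : Type} {dI : I → ℤ} {dJ : J → ℤ} {a b : Matrix I J (U k)}
    (ha : IsFM dI dJ a) (hb : IsFM dI dJ b) : IsFM dI dJ (a + b) :=
  fun i j => add_mem (ha i j) (hb i j)

lemma IsFM.zero {I J : Type} {dI : I → ℤ} {dJ : J → ℤ} : IsFM dI dJ (0 : Matrix I J (U k)) :=
  fun _ _ => zero_mem _

lemma IsFM.khat {b₁ b₀ δ : Matrix (Fin 5) (Fin 5) (U k)} (h₁ : IsFM d5 d5 b₁)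
    (h₀ : IsFM d5 d5 b₀) (hδ : IsFM d5 d5 δ) : IsFM dK dK (Khat b₁ b₀ δ) := by
  rintro (v | v) (w | w)
  · simpa [Khat, dK, G5_apply] using g_mem (h₀ _ _) _ _
  · simp only [Khat, dK, fromBlocks_apply₁₂, G5_mul_S5_apply, Sum.elim_inl, Sum.elim_inr]
    rw [Matrix.mul_apply]
    refine Submodule.sum_mem _ fun c _ => ?_
    have := mul_mem_F (g_mem (hδ v.1 w.1) v.2 c) (sig_mem c w.2)
    rwa [show d5 v.1 - d5 w.1 + 1 = d5 v.1 + 1 - d5 w.1 by ring] at this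
  · simp [Khat]
  · simpa [Khat, dK, G5_apply] using g_mem (h₁ _ _) _ _

variable (k) in
/-- the finite-dimensional algebra -/
noncomputable def Gam : Subalgebra k (Amb k) where
  carrier := {x | ∃ b₁ b₀ δ ν, IsFM d5 d5 b₁ ∧ IsFM d5 d5 b₀ ∧ IsFM d5 d5 δ ∧ IsFM dK d5 ν ∧
    x = mkG b₁ b₀ δ ν}
  mul_mem' := by
    rintro _ _ ⟨b₁, b₀, δ, ν, h₁, h₀, hδ, hν, rfl⟩ ⟨b₁', b₀', δ', ν', h₁', h₀', hδ', hν', rfl⟩
    exact ⟨_, _, _, _, h₁.mul h₁', h₀.mul h₀', (hδ.mul h₁').add (h₀.mul hδ'),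
      (hν.mul h₀').add ((h₁.khat h₀ hδ).mul hν'), mkG_mul ..⟩
  add_mem' := by
    rintro _ _ ⟨b₁, b₀, δ, ν, h₁, h₀, hδ, hν, rfl⟩ ⟨b₁', b₀', δ', ν', h₁', h₀', hδ', hν', rfl⟩
    exact ⟨_, _, _, _, h₁.add h₁', h₀.add h₀', hδ.add hδ', hν.add hν', mkG_add ..⟩
  algebraMap_mem' c := by
    have h : IsFM d5 d5 (algebraMap k (Matrix (Fin 5) (Fin 5) (U k)) c) := fun i j => by
      rw [Matrix.algebraMap_matrix_apply]
      split_ifs with hij
      · subst hij; exact algebraMap_mem_F (by simp) c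
      · exact zero_mem _
    refine ⟨_, _, 0, 0, h, h, IsFM.zero, IsFM.zero, ?_⟩
    simp only [mkG, Khat, AlgHom.commutes, map_zero, Matrix.zero_mul]
    simp only [Algebra.algebraMap_eq_smul_one, ← fromBlocks_one, Prod.ext_iff, Prod.smul_fst,
      Prod.smul_snd, Prod.fst_one, Prod.snd_one]
    constructor <;> ext (i | i | i) (j | j | j) <;> simp [Matrix.one_apply]

/-- components -/
noncomputable def cb₁ (γ : Gam k) : Matrix (Fin 5) (Fin 5) (U k) := γ.1.1.toBlocks₁₁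
/-- components -/
noncomputable def cb₀ (γ : Gam k) : Matrix (Fin 5) (Fin 5) (U k) := γ.1.1.toBlocks₂₂
/-- components -/
noncomputable def cδ (γ : Gam k) : Matrix (Fin 5) (Fin 5) (U k) := γ.1.1.toBlocks₂₁
/-- components -/
noncomputable def cν (γ : Gam k) : Matrix (V5 ⊕ V5) (Fin 5) (U k) := γ.1.2.toBlocks₂₁

lemma Gam_spec (γ : Gam k) : IsFM d5 d5 (cb₁ γ) ∧ IsFM d5 d5 (cb₀ γ) ∧ IsFM d5 d5 (cδ γ) ∧
    IsFM dK d5 (cν γ) ∧ γ.1 = mkG (cb₁ γ) (cb₀ γ) (cδ γ) (cν γ) := by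
  obtain ⟨_, b₁, b₀, δ, ν, h₁, h₀, hδ, hν, rfl⟩ := γ
  exact ⟨h₁, h₀, hδ, hν, rfl⟩

lemma Gam_fst (γ : Gam k) : γ.1.1 = fromBlocks (cb₁ γ) 0 (cδ γ) (cb₀ γ) :=
  congrArg Prod.fst (Gam_spec γ).2.2.2.2

lemma Gam_snd (γ : Gam k) :
    γ.1.2 = fromBlocks (cb₀ γ) 0 (cν γ) (Khat (cb₁ γ) (cb₀ γ) (cδ γ)) :=
  congrArg Prod.snd (Gam_spec γ).2.2.2.2

lemma Gam_mul_mkG (γ : Gam k) (b₁ b₀ δ : Matrix (Fin 5) (Fin 5) (U k))
    (ν : Matrix (V5 ⊕ V5) (Fin 5) (U k)) :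
    γ.1 * mkG b₁ b₀ δ ν = mkG (cb₁ γ * b₁) (cb₀ γ * b₀) (cδ γ * b₁ + cb₀ γ * δ)
      (cν γ * b₀ + Khat (cb₁ γ) (cb₀ γ) (cδ γ) * ν) :=
  (congrArg (· * mkG b₁ b₀ δ ν) (Gam_spec γ).2.2.2.2).trans (mkG_mul ..)

variable (k)

/-- the representation on pairs -/
noncomputable def rI : Rep k (Gam k) (Fin 5 ⊕ Fin 5) where
  deg := Sum.elim d5 d5
  ρ := (RingHom.fst _ _).comp (Gam k).val.toRingHom
  mem γ := by
    obtain ⟨h₁, h₀, hδ, -, -⟩ := Gam_spec γ
    change ∀ i j, γ.1.1 i j ∈ _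
    rw [Gam_fst]
    rintro (i | i) (j | j)
    exacts [h₁ i j, zero_mem _, hδ i j, h₀ i j]

/-- the induced representation -/
noncomputable def rE : Rep k (Gam k) (Fin 5 ⊕ V5 ⊕ V5) where
  deg := Sum.elim d5 dK
  ρ := (RingHom.snd _ _).comp (Gam k).val.toRingHom
  mem γ := by
    obtain ⟨h₁, h₀, hδ, hν, -⟩ := Gam_spec γ
    change ∀ i j, γ.1.2 i j ∈ _
    rw [Gam_snd]
    rintro (i | i) (j | j)
    exacts [h₀ i j, zero_mem _, hν i j, h₁.khat h₀ hδ i j]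

variable {k}

lemma rI_ρ (γ : Gam k) : (rI k).ρ γ = fromBlocks (cb₁ γ) 0 (cδ γ) (cb₀ γ) := Gam_fst γ

lemma rE_ρ (γ : Gam k) :
    (rE k).ρ γ = fromBlocks (cb₀ γ) 0 (cν γ) (Khat (cb₁ γ) (cb₀ γ) (cδ γ)) := Gam_snd γ

section Sub

variable {Γ : Type} [Ring Γ] {I₁ I₂ : Type} [Fintype I₁] [DecidableEq I₁] [Fintype I₂]
  [DecidableEq I₂]

/-- upper left block -/
noncomputable def Rep.top (r : Rep k Γ (I₁ ⊕ I₂))
    (h : ∀ γ i j, r.ρ γ (Sum.inl i) (Sum.inr j) = 0) : Rep k Γ I₁ where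
  deg i := r.deg (Sum.inl i)
  ρ :=
    { toFun := fun γ => (r.ρ γ).toBlocks₁₁
      map_one' := by ext i j; simp [toBlocks₁₁, Matrix.one_apply]
      map_mul' := fun a b => by
        ext i j; simp [toBlocks₁₁, Matrix.mul_apply, Fintype.sum_sum_type, h]
      map_zero' := by ext i j; simp [toBlocks₁₁]
      map_add' := fun a b => by ext i j; simp [toBlocks₁₁] }
  mem γ i j := r.mem γ _ _

/-- lower right block -/
noncomputable def Rep.bot (r : Rep k Γ (I₁ ⊕ I₂))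
    (h : ∀ γ i j, r.ρ γ (Sum.inl i) (Sum.inr j) = 0) : Rep k Γ I₂ where
  deg i := r.deg (Sum.inr i)
  ρ :=
    { toFun := fun γ => (r.ρ γ).toBlocks₂₂
      map_one' := by ext i j; simp [toBlocks₂₂, Matrix.one_apply]
      map_mul' := fun a b => by
        ext i j; simp [toBlocks₂₂, Matrix.mul_apply, Fintype.sum_sum_type, h]
      map_zero' := by ext i j; simp [toBlocks₂₂]
      map_add' := fun a b => by ext i j; simp [toBlocks₂₂] }
  mem γ i j := r.mem γ _ _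

end Sub

lemma rI_upper (γ : Gam k) (i j : Fin 5) : (rI k).ρ γ (Sum.inl i) (Sum.inr j) = 0 := by
  rw [rI_ρ]; rfl

lemma rE_upper (γ : Gam k) (i : Fin 5) (j : V5 ⊕ V5) :
    (rE k).ρ γ (Sum.inl i) (Sum.inr j) = 0 := by
  rw [rE_ρ]; rfl

variable (k)

/-- the module concentrated on the first copy -/
noncomputable def rT : Rep k (Gam k) (Fin 5) := (rI k).top rI_upper
/-- the module concentrated on the second copy -/
noncomputable def rA : Rep k (Gam k) (Fin 5) := (rI k).bot rI_upper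
/-- the translated part -/
noncomputable def rK : Rep k (Gam k) (V5 ⊕ V5) := (rE k).bot rE_upper

variable {k}

lemma rT_ρ (γ : Gam k) : (rT k).ρ γ = cb₁ γ := rfl
lemma rA_ρ (γ : Gam k) : (rA k).ρ γ = cb₀ γ := rfl
lemma rK_ρ (γ : Gam k) : (rK k).ρ γ = Khat (cb₁ γ) (cb₀ γ) (cδ γ) := by
  change ((rE k).ρ γ).toBlocks₂₂ = _
  rw [rE_ρ]; rfl

lemma block_I : IsBlock (rI k) (rT k) (rA k) :=
  ⟨fun _ => rfl, fun _ => rfl, fun _ _ _ => rfl, rI_upper, fun _ _ _ => rfl⟩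

lemma block_E : IsBlock (rE k) (rA k) (rK k) :=
  ⟨fun _ => rfl, fun _ => rfl, fun γ _ _ => by rw [rE_ρ]; rfl, rE_upper, fun _ _ _ => rfl⟩

instance : Module.Finite k (Gam k) := by
  let W : Submodule k (Amb k) :=
    (Submodule.pi Set.univ fun _ => Submodule.pi Set.univ fun _ => F k 5).prod
      (Submodule.pi Set.univ fun _ => Submodule.pi Set.univ fun _ => F k 5)
  have hW : W.FG := Submodule.FG.prod
    (Submodule.fg_pi fun _ => Submodule.fg_pi fun _ => F_fg 5)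
    (Submodule.fg_pi fun _ => Submodule.fg_pi fun _ => F_fg 5)
  have hle : Subalgebra.toSubmodule (Gam k) ≤ W := by
    intro x hx
    refine ⟨fun i _ j _ => F_mono ?_ ((rI k).mem ⟨x, hx⟩ i j),
      fun i _ j _ => F_mono ?_ ((rE k).mem ⟨x, hx⟩ i j)⟩
    · rcases i with i | i <;> rcases j with j | j <;> simp only [rI, d5, Sum.elim_inl,
        Sum.elim_inr] <;> omega
    · rcases i with i | i | i <;> rcases j with j | j | j <;> simp only [rE, d5, dK, Sum.elim_inl,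
        Sum.elim_inr] <;> omega
  have : Module.Finite k W := Module.Finite.iff_fg.2 hW
  have : IsNoetherian k W := (IsNoetherian.iff_fg (K := k) (V := W)).2 this
  exact Module.Finite.of_injective (Submodule.inclusion hle) (Submodule.inclusion_injective hle)

/-- the matrix with a single nonzero column -/
noncomputable def colM {I : Type} (p : Fin 5) (x : I → U k) : Matrix I (Fin 5) (U k) :=
  Matrix.of fun i j => if j = p then x i else 0

lemma mul_colM {I J : Type} [Fintype J] (a : Matrix I J (U k)) (p : Fin 5) (x : J → U k) :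
    a * colM p x = colM p fun i => ∑ j, a i j * x j := by
  ext i l
  simp only [colM, Matrix.mul_apply, Matrix.of_apply]
  split_ifs <;> simp

lemma colM_add {I : Type} (p : Fin 5) (x x' : I → U k) :
    colM p x + colM p x' = colM p (x + x') := by
  ext i l
  simp only [colM, Matrix.add_apply, Matrix.of_apply, Pi.add_apply]
  split_ifs <;> simp

lemma IsFM.colM {I : Type} {dI : I → ℤ} (p : Fin 5) {x : I → U k}
    (hx : ∀ i, x i ∈ F k (dI i - d5 p)) : IsFM dI d5 (colM p x) := fun i j => by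
  simp only [Vale.Agent.P176.colM, Matrix.of_apply]
  split_ifs with h
  · subst h; exact hx i
  · exact zero_mem _

lemma projective_I (ι : Type) [Fintype ι] [DecidableEq ι] (p : Fin 5) :
    Module.Projective (Gam k) (MM (rI k) (freeF k ι ((p : ℕ) : ℤ))) := by
  refine projective_MM (rI k) (Sum.inl p) ι
    { toFun := fun w => ⟨mkG (colM p fun i => w.1 (Sum.inl i) ()) 0
        (colM p fun i => w.1 (Sum.inr i) ()) 0, _, _, _, _,
        IsFM.colM p fun i => mem_freeF.1 (w.2 (Sum.inl i)) (), IsFM.zero,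
        IsFM.colM p fun i => mem_freeF.1 (w.2 (Sum.inr i)) (), IsFM.zero, rfl⟩
      map_add' := fun v w => Subtype.ext ?_
      map_smul' := fun γ w => Subtype.ext ?_ } ?_
  · change _ = mkG _ _ _ _ + mkG _ _ _ _
    simp only [mkG_add, add_zero, colM_add]; rfl
  · refine Eq.trans ?_ (Gam_mul_mkG γ _ _ _ _).symm
    simp only [Matrix.mul_zero, add_zero]
    simp only [mul_colM, colM_add]
    change mkG _ _ _ _ = _
    congr 2 <;> funext i <;>
      simp [MM_smul_apply, rI_ρ, Fintype.sum_sum_type, Finset.sum_apply] <;> rfl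
  · rintro w (i | i) <;> exact if_pos rfl

lemma projective_E (ι : Type) [Fintype ι] [DecidableEq ι] (p : Fin 5) :
    Module.Projective (Gam k) (MM (rE k) (freeF k ι ((p : ℕ) : ℤ))) := by
  refine projective_MM (rE k) (Sum.inl p) ι
    { toFun := fun w => ⟨mkG 0 (colM p fun i => w.1 (Sum.inl i) ()) 0
        (colM p fun i => w.1 (Sum.inr i) ()), _, _, _, _, IsFM.zero,
        IsFM.colM p fun i => mem_freeF.1 (w.2 (Sum.inl i)) (), IsFM.zero,
        IsFM.colM p fun i => mem_freeF.1 (w.2 (Sum.inr i)) (), rfl⟩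
      map_add' := fun v w => Subtype.ext ?_
      map_smul' := fun γ w => Subtype.ext ?_ } ?_
  · change _ = mkG _ _ _ _ + mkG _ _ _ _
    simp only [mkG_add, add_zero, colM_add]; rfl
  · refine Eq.trans ?_ (Gam_mul_mkG γ _ _ _ _).symm
    simp only [Matrix.mul_zero, add_zero]
    simp only [mul_colM, colM_add]
    change mkG _ _ _ _ = _
    congr 2 <;> funext i <;>
      simp [MM_smul_apply, rE_ρ, Fintype.sum_sum_type, Finset.sum_apply] <;> rfl
  · rintro w (i | i) <;> exact if_pos rfl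

end Vale.Agent.P176
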