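import Vale.Agent.P176.Ugl2

/-!
The translation data: the algebra map `g` (tensoring with the natural module, twisted by the
inverse determinant) and the commuting matrix `sig`.
-/

namespace Vale.Agent.P176

variable (k : Type) [Field k]

/-- images of the generators -/
noncomputable def gGen : Fin 4 → Matrix (Fin 2) (Fin 2) (U k) :=
  ![!![y k 0, 0; 0, y k 0 - 1], !![y k 1 - 1, 0; 0, y k 1], !![y k 2, 1; 0, y k 2],
    !![y k 3, 0; 1, y k 3]]

/-- the algebra map `g` -/
noncomputable def g : U k →ₐ[k] Matrix (Fin 2) (Fin 2) (U k) :=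
  Ulift (gGen k)
    (by
      ext a b; fin_cases a <;> fin_cases b <;>
        simp [gGen, Matrix.mul_apply, Fin.sum_univ_two, mul_sub, sub_mul, y_st])
    (by
      ext a b; fin_cases a <;> fin_cases b <;>
        simp [gGen, Matrix.mul_apply, Fin.sum_univ_two, mul_sub, sub_mul, y_se])
    (by
      ext a b; fin_cases a <;> fin_cases b <;>
        simp [gGen, Matrix.mul_apply, Fin.sum_univ_two, mul_sub, sub_mul, y_sf])
    (by
      ext a b; fin_cases a <;> fin_cases b <;>
        simp [gGen, Matrix.mul_apply, Fin.sum_univ_two, mul_sub, sub_mul, y_te])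
    (by
      ext a b; fin_cases a <;> fin_cases b <;>
        simp [gGen, Matrix.mul_apply, Fin.sum_univ_two, mul_sub, sub_mul, y_tf])
    (by
      ext a b; fin_cases a <;> fin_cases b <;>
        simp [gGen, Matrix.mul_apply, Fin.sum_univ_two, y_ef] <;> abel)

/-- the commuting matrix -/
noncomputable def sig : Matrix (Fin 2) (Fin 2) (U k) := !![1 + y k 0, y k 3; y k 2, 1 + y k 1]

variable {k}

lemma g_y (i : Fin 4) : g k (y k i) = gGen k i := by simp [g]

lemma sig_comm (u : U k) : sig k * g k u = g k u * sig k := by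
  induction u using U_induction with
  | halg c => rw [AlgHom.commutes, Algebra.commutes]
  | hy i =>
    rw [g_y]
    ext a b
    fin_cases i <;> fin_cases a <;> fin_cases b <;>
      simp [gGen, sig, Matrix.mul_apply, Fin.sum_univ_two, mul_sub, sub_mul, mul_add, add_mul,
        y_st, y_se, y_sf, y_te, y_tf, y_ef] <;> abel
  | hmul a b ha hb => rw [map_mul, ← mul_assoc, ha, mul_assoc, hb, mul_assoc]
  | hadd a b ha hb => rw [map_add, mul_add, add_mul, ha, hb]

lemma sig_mem (a b : Fin 2) : sig k a b ∈ F k 1 := by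
  have h1 : (1 : U k) ∈ F k 1 := one_mem_F (by norm_num)
  fin_cases a <;> fin_cases b <;> simp [sig, y_mem_F, add_mem h1]

lemma gGen_mem (i : Fin 4) (a b : Fin 2) : gGen k i a b ∈ F k 1 := by
  have h1 : (1 : U k) ∈ F k 1 := one_mem_F (by norm_num)
  fin_cases i <;> fin_cases a <;> fin_cases b <;>
    simp [gGen, y_mem_F, h1, sub_mem (y_mem_F _) h1]

lemma g_mem_nat (n : ℕ) : ∀ u ∈ F k n, ∀ a b : Fin 2, g k u a b ∈ F k n := by
  induction n with
  | zero =>
    intro u hu a b
    obtain ⟨c, rfl⟩ := mem_F_zero hu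
    rw [AlgHom.commutes, Matrix.algebraMap_matrix_apply]
    split_ifs
    · exact algebraMap_mem_F (by simp) c
    · exact zero_mem _
  | succ n ih =>
    intro u hu
    push_cast at hu ⊢
    refine F_succ_induction_right (n := n) (by simp)
      (P := fun u => ∀ a b, g k u a b ∈ F k (n + 1)) ?_ ?_ ?_ hu
    · intro u hu a b; exact F_mono (by omega) (ih u hu a b)
    · intro u hu i a b
      rw [map_mul, Matrix.mul_apply, g_y]
      exact Submodule.sum_mem _ fun c _ => mul_mem_F (ih u hu a c) (gGen_mem i c b)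
    · intro u v hu hv a b; rw [map_add]; exact add_mem (hu a b) (hv a b)

lemma g_mem {n : ℤ} {u : U k} (hu : u ∈ F k n) (a b : Fin 2) : g k u a b ∈ F k n := by
  by_cases hn : n < 0
  · rw [F_neg hn] at hu; simp at hu; simp [hu]
  obtain ⟨n, rfl⟩ := Int.eq_ofNat_of_zero_le (not_lt.1 hn)
  exact g_mem_nat n u hu a b

variable (k) in
/-- finite-dimensional modules over the enveloping algebra -/
structure FD where
  /-- carrier -/
  X : Type
  [acg : AddCommGroup X]
  [modk : Module k X]
  [modU : Module (U k) X]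
  [tower : IsScalarTower k (U k) X]
  [fin : Module.Finite k X]

attribute [instance] FD.acg FD.modk FD.modU FD.tower FD.fin

/-- `Y` is the kernel and cokernel of `sig` acting on two copies of `X` through `g` -/
structure Step (X Y : FD k) where
  /-- the nonzero eigenvalue -/
  c : k
  hc : c ≠ 0
  /-- inclusion -/
  i : Y.X →+ (Fin 2 → X.X)
  /-- projection -/
  p : (Fin 2 → X.X) →+ Y.X
  i_smul : ∀ (r : U k) x a, i (r • x) a = ∑ b, g k r a b • i x b
  p_smul : ∀ (r : U k) (w : Fin 2 → X.X), p (fun a => ∑ b, g k r a b • w b) = r • p w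
  p_i : ∀ x, p (i x) = x
  sig_i : ∀ x a, ∑ b, sig k a b • i x b = 0
  p_sig : ∀ w : Fin 2 → X.X, p (fun a => ∑ b, sig k a b • w b) = 0
  decomp : ∀ (w : Fin 2 → X.X) a, c • i (p w) a + ∑ b, sig k a b • w b = c • w a

end Vale.Agent.P176
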