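import Vale.Agent.P176.Ugl2

/-!
The PBW key lemma for the enveloping algebra of gl2.
-/

namespace Vale.Agent.P176

open MvPolynomial

variable (k : Type) [Field k]

/-- commutative polynomials in four variables -/
abbrev SP : Type := MvPolynomial (Fin 4) k

/-- multiplication by a variable -/
noncomputable def mX (j : Fin 4) : Module.End k (SP k) := LinearMap.mulLeft k (X j)

/-- a formal derivative -/
noncomputable def dX (j : Fin 4) : Module.End k (SP k) := (pderiv j).toLinearMap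

/-- the right action of the generators -/
noncomputable def rhoGen : Fin 4 → Module.End k (SP k) :=
  ![mX k 0 - mX k 2 * dX k 2 + mX k 3 * dX k 3, mX k 1 + mX k 2 * dX k 2 - mX k 3 * dX k 3,
    mX k 2, mX k 3 + (mX k 0 - mX k 1 + (mX k 3 * dX k 3 + mX k 3 * dX k 3)
      - mX k 2 * dX k 2) * dX k 2]

variable {k}

lemma pderiv_comm32 (p : SP k) : pderiv 3 (pderiv 2 p) = pderiv 2 (pderiv 3 p) := by
  ext m
  simp only [coeff_pderiv, Finsupp.add_apply, Finsupp.single_apply]
  rw [add_right_comm]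
  simp
  ring

lemma rho0 (p : SP k) : rhoGen k 0 p = X 0 * p - X 2 * pderiv 2 p + X 3 * pderiv 3 p := rfl
lemma rho1 (p : SP k) : rhoGen k 1 p = X 1 * p + X 2 * pderiv 2 p - X 3 * pderiv 3 p := rfl
lemma rho2 (p : SP k) : rhoGen k 2 p = X 2 * p := rfl
lemma rho3 (p : SP k) : rhoGen k 3 p = X 3 * p + (X 0 * pderiv 2 p - X 1 * pderiv 2 p
    + (X 3 * pderiv 3 (pderiv 2 p) + X 3 * pderiv 3 (pderiv 2 p))
    - X 2 * pderiv 2 (pderiv 2 p)) := rfl

lemma rel01 (p : SP k) : rhoGen k 1 (rhoGen k 0 p) = rhoGen k 0 (rhoGen k 1 p) := by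
  simp [rho0, rho1, pderiv_comm32]
  ring

lemma rel02 (p : SP k) : rhoGen k 2 (rhoGen k 0 p) = rhoGen k 0 (rhoGen k 2 p) + rhoGen k 2 p := by
  simp [rho0, rho2]
  ring

lemma rel03 (p : SP k) : rhoGen k 3 (rhoGen k 0 p) = rhoGen k 0 (rhoGen k 3 p) - rhoGen k 3 p := by
  simp [rho0, rho3, pderiv_comm32]
  ring

lemma rel12 (p : SP k) : rhoGen k 2 (rhoGen k 1 p) = rhoGen k 1 (rhoGen k 2 p) - rhoGen k 2 p := by
  simp [rho1, rho2]
  ring

lemma rel13 (p : SP k) : rhoGen k 3 (rhoGen k 1 p) = rhoGen k 1 (rhoGen k 3 p) + rhoGen k 3 p := by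
  simp [rho1, rho3, pderiv_comm32]
  ring

lemma rel23 (p : SP k) : rhoGen k 3 (rhoGen k 2 p)
    = rhoGen k 2 (rhoGen k 3 p) + rhoGen k 0 p - rhoGen k 1 p := by
  simp [rho0, rho1, rho2, rho3]
  ring

variable (k) in
/-- the right regular action in a PBW basis -/
noncomputable def rho : U k →ₐ[k] (Module.End k (SP k))ᵐᵒᵖ :=
  Ulift (fun i => MulOpposite.op (rhoGen k i))
    (MulOpposite.unop_injective (LinearMap.ext fun p => rel01 p))
    (MulOpposite.unop_injective (LinearMap.ext fun p => rel02 p))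
    (MulOpposite.unop_injective (LinearMap.ext fun p => rel03 p))
    (MulOpposite.unop_injective (LinearMap.ext fun p => rel12 p))
    (MulOpposite.unop_injective (LinearMap.ext fun p => rel13 p))
    (MulOpposite.unop_injective (LinearMap.ext fun p => rel23 p))

variable (k) in
/-- the symbol map -/
noncomputable def phi : U k →ₗ[k] SP k where
  toFun u := (rho k u).unop 1
  map_add' u v := by simp
  map_smul' c u := by simp

lemma phi_mul_y (u : U k) (j : Fin 4) : phi k (u * y k j) = rhoGen k j (phi k u) := by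
  simp [phi, rho]

lemma phi_algebraMap (c : k) : phi k (algebraMap k (U k) c) = C c := by
  rw [Algebra.algebraMap_eq_smul_one, map_smul]
  simp [phi, smul_eq_C_mul]

variable (k) in
/-- polynomials all of whose monomials of degree above `n` contain a variable below `i` -/
def Wd (i : ℕ) (n : ℤ) : Submodule k (SP k) where
  carrier := {p | ∀ m : Fin 4 →₀ ℕ, n < (m.degree : ℤ) → (∀ j : Fin 4, (j : ℕ) < i → m j = 0) →
    coeff m p = 0}
  add_mem' ha hb m h1 h2 := by rw [coeff_add, ha m h1 h2, hb m h1 h2, add_zero]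
  zero_mem' m _ _ := rfl
  smul_mem' c p hp m h1 h2 := by rw [coeff_smul, hp m h1 h2, smul_zero]

lemma mem_Wd_zero {n : ℤ} {p : SP k} :
    p ∈ Wd k 0 n ↔ ∀ m : Fin 4 →₀ ℕ, n < (m.degree : ℤ) → coeff m p = 0 :=
  ⟨fun h m hm => h m hm (by simp), fun h m hm _ => h m hm⟩

lemma Wd_le (i : ℕ) {a b : ℤ} (h : a ≤ b) : Wd k 0 a ≤ Wd k i b :=
  fun _ hp m hm _ => mem_Wd_zero.1 hp m (h.trans_lt hm)

lemma sub_single_add {m : Fin 4 →₀ ℕ} {j : Fin 4} (h : m j ≠ 0) :
    m - Finsupp.single j 1 + Finsupp.single j 1 = m :=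
  tsub_add_cancel_of_le (Finsupp.single_le_iff.2 (Nat.one_le_iff_ne_zero.2 h))

lemma degree_add_single (m : Fin 4 →₀ ℕ) (j : Fin 4) :
    ((m + Finsupp.single j 1).degree : ℤ) = m.degree + 1 := by
  rw [map_add, Finsupp.degree_single]; push_cast; ring

lemma X_mul_mem {n : ℤ} {p : SP k} (hp : p ∈ Wd k 0 n) (j : Fin 4) : X j * p ∈ Wd k 0 (n + 1) := by
  rw [mem_Wd_zero] at *
  intro m hm
  rw [coeff_X_mul']
  split_ifs with h
  · refine hp _ ?_
    have := degree_add_single (m - Finsupp.single j 1) j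
    rw [sub_single_add (Finsupp.mem_support_iff.1 h)] at this
    omega
  · rfl

lemma pderiv_mem {n : ℤ} {p : SP k} (hp : p ∈ Wd k 0 n) (j : Fin 4) :
    pderiv j p ∈ Wd k 0 (n - 1) := by
  rw [mem_Wd_zero] at *
  intro m hm
  rw [coeff_pderiv, hp _ (by rw [degree_add_single]; omega), zero_mul]

lemma X_mul_pderiv_mem {n : ℤ} {p : SP k} (hp : p ∈ Wd k 0 n) (i j : Fin 4) :
    X i * pderiv j p ∈ Wd k 0 n := by
  simpa using X_mul_mem (pderiv_mem hp j) i

lemma rhoGen_sub_mem {n : ℤ} {p : SP k} (hp : p ∈ Wd k 0 n) (j : Fin 4) :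
    rhoGen k j p - X j * p ∈ Wd k 0 n := by
  have h2 : pderiv 2 p ∈ Wd k 0 n := Wd_le 0 (by omega) (pderiv_mem hp 2)
  fin_cases j
  · have : rhoGen k 0 p - X 0 * p = X 3 * pderiv 3 p - X 2 * pderiv 2 p := by rw [rho0]; ring
    exact this ▸ sub_mem (X_mul_pderiv_mem hp _ _) (X_mul_pderiv_mem hp _ _)
  · have : rhoGen k 1 p - X 1 * p = X 2 * pderiv 2 p - X 3 * pderiv 3 p := by rw [rho1]; ring
    exact this ▸ sub_mem (X_mul_pderiv_mem hp _ _) (X_mul_pderiv_mem hp _ _)
  · have : rhoGen k 2 p - X 2 * p = 0 := by rw [rho2]; ring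
    exact this ▸ zero_mem _
  · have : rhoGen k 3 p - X 3 * p = X 0 * pderiv 2 p - X 1 * pderiv 2 p
        + (X 3 * pderiv 3 (pderiv 2 p) + X 3 * pderiv 3 (pderiv 2 p))
        - X 2 * pderiv 2 (pderiv 2 p) := by rw [rho3]; ring
    exact this ▸ sub_mem (add_mem (sub_mem (X_mul_pderiv_mem hp _ _) (X_mul_pderiv_mem hp _ _))
      (add_mem (X_mul_pderiv_mem h2 _ _) (X_mul_pderiv_mem h2 _ _))) (X_mul_pderiv_mem h2 _ _)

lemma phi_mem_nat (n : ℕ) : ∀ u ∈ F k n, phi k u ∈ Wd k 0 n := by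
  induction n with
  | zero =>
    intro u hu
    obtain ⟨c, rfl⟩ := mem_F_zero hu
    rw [phi_algebraMap, mem_Wd_zero]
    intro m hm
    rw [coeff_C, if_neg]
    rintro rfl
    simp at hm
  | succ n ih =>
    intro u hu
    push_cast at hu ⊢
    refine F_succ_induction_right (n := n) (by simp)
      (P := fun u => phi k u ∈ Wd k 0 (n + 1)) ?_ ?_ ?_ hu
    · intro u hu; exact Wd_le 0 (by omega) (ih u hu)
    · intro u hu j
      rw [phi_mul_y, ← sub_add_cancel (rhoGen k j (phi k u)) (X j * phi k u)]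
      exact add_mem (Wd_le 0 (by omega) (rhoGen_sub_mem (ih u hu) j)) (X_mul_mem (ih u hu) j)
    · intro u v hu hv; rw [map_add]; exact add_mem hu hv

lemma phi_mem {n : ℤ} {u : U k} (hu : u ∈ F k n) : phi k u ∈ Wd k 0 n := by
  by_cases hn : n < 0
  · rw [F_neg hn] at hu; simp at hu; simp [hu]
  obtain ⟨n, rfl⟩ := Int.eq_ofNat_of_zero_le (not_lt.1 hn)
  exact phi_mem_nat n u hu

variable (k) in
/-- ordered monomials -/
noncomputable def mon (m : Fin 4 →₀ ℕ) : U k :=
  y k 0 ^ m 0 * (y k 1 ^ m 1 * (y k 2 ^ m 2 * y k 3 ^ m 3))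

variable (k) in
/-- the ordering map -/
noncomputable def psi : SP k →ₗ[k] U k := (basisMonomials (Fin 4) k).constr k (mon k)

lemma psi_monomial (m : Fin 4 →₀ ℕ) : psi k (monomial m 1) = mon k m := by
  have := (basisMonomials (Fin 4) k).constr_basis k (mon k) m
  rwa [coe_basisMonomials] at this

lemma mem_of_monomials {V : Type} [AddCommGroup V] [Module k V] (T : SP k →ₗ[k] V)
    (W : Submodule k V) (p : SP k) (h : ∀ m, coeff m p ≠ 0 → T (monomial m 1) ∈ W) : T p ∈ W := by
  rw [p.as_sum, map_sum]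
  refine Submodule.sum_mem _ fun m hm => ?_
  have : monomial m (coeff m p) = coeff m p • monomial m (1 : k) := by
    rw [smul_monomial, smul_eq_mul, mul_one]
  rw [this, map_smul]
  exact Submodule.smul_mem _ _ (h m (mem_support_iff.1 hm))

lemma y_pow_mem (j : Fin 4) (n : ℕ) : y k j ^ n ∈ F k n := by
  induction n with
  | zero => simpa using one_mem_F_nat (k := k) 0
  | succ n ih => rw [pow_succ]; simpa using mul_mem_F ih (y_mem_F j)

lemma degree_four (m : Fin 4 →₀ ℕ) : (m.degree : ℤ) = m 0 + (m 1 + (m 2 + m 3)) := by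
  rw [Finsupp.degree_eq_sum, Fin.sum_univ_four]; push_cast; ring

lemma mon_mem (m : Fin 4 →₀ ℕ) : mon k m ∈ F k m.degree := by
  rw [degree_four]
  exact mul_mem_F (y_pow_mem _ _) (mul_mem_F (y_pow_mem _ _)
    (mul_mem_F (y_pow_mem _ _) (y_pow_mem _ _)))

lemma y_comm_y (i j : Fin 4) : y k i * y k j - y k j * y k i ∈ F k 1 := by
  have h := fun i => y_mem_F (k := k) i
  fin_cases i <;> fin_cases j <;>
    simp [y_st, y_se, y_sf, y_te, y_tf, y_ef, h]
  · have : y k 3 * y k 2 + y k 0 - y k 1 - y k 3 * y k 2 = y k 0 - y k 1 := by abel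
    rw [this]; exact sub_mem (h _) (h _)
  · have : y k 3 * y k 2 - (y k 3 * y k 2 + y k 0 - y k 1) = y k 1 - y k 0 := by abel
    rw [this]; exact sub_mem (h _) (h _)

lemma y_comm_nat (j : Fin 4) (n : ℕ) : ∀ b ∈ F k n, y k j * b - b * y k j ∈ F k n := by
  induction n with
  | zero =>
    intro b hb
    obtain ⟨c, rfl⟩ := mem_F_zero hb
    rw [Algebra.commutes, sub_self]; exact zero_mem _
  | succ n ih =>
    intro b hb
    push_cast at hb ⊢
    refine F_succ_induction_right (n := n) (by simp)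
      (P := fun b => y k j * b - b * y k j ∈ F k (n + 1)) ?_ ?_ ?_ hb
    · intro u hu; exact F_mono (by omega) (ih u hu)
    · intro u hu i
      have : y k j * (u * y k i) - u * y k i * y k j
          = (y k j * u - u * y k j) * y k i + u * (y k j * y k i - y k i * y k j) := by
        simp only [sub_mul, mul_sub, mul_assoc]; abel
      rw [this]
      exact add_mem (mul_mem_F (ih u hu) (y_mem_F i)) (mul_mem_F hu (y_comm_y j i))
    · intro u v hu hv
      have : y k j * (u + v) - (u + v) * y k j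
          = (y k j * u - u * y k j) + (y k j * v - v * y k j) := by
        simp only [add_mul, mul_add]; abel
      rw [this]; exact add_mem hu hv

lemma y_comm (j : Fin 4) {n : ℤ} {b : U k} (hb : b ∈ F k n) : y k j * b - b * y k j ∈ F k n := by
  by_cases hn : n < 0
  · rw [F_neg hn] at hb; simp at hb; simp [hb]
  obtain ⟨n, rfl⟩ := Int.eq_ofNat_of_zero_le (not_lt.1 hn)
  exact y_comm_nat j n b hb

lemma mon_add_single (m : Fin 4 →₀ ℕ) (j : Fin 4) :
    mon k (m + Finsupp.single j 1) - mon k m * y k j ∈ F k m.degree := by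
  rw [degree_four]
  have p0 := y_pow_mem (k := k) 0 (m 0)
  have p1 := y_pow_mem (k := k) 1 (m 1)
  have p2 := y_pow_mem (k := k) 2 (m 2)
  have p3 := y_pow_mem (k := k) 3 (m 3)
  fin_cases j
  · have := mul_mem_F p0 (y_comm 0 (mul_mem_F p1 (mul_mem_F p2 p3)))
    convert this using 1
    simp [mon, pow_succ, mul_sub, mul_assoc]
  · have := mul_mem_F p0 (mul_mem_F p1 (y_comm 1 (mul_mem_F p2 p3)))
    convert this using 1
    simp [mon, pow_succ, mul_sub, mul_assoc]
  · have := mul_mem_F p0 (mul_mem_F p1 (mul_mem_F p2 (y_comm 2 p3)))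
    convert this using 1
    simp [mon, pow_succ, mul_sub, mul_assoc]
  · have : mon k (m + Finsupp.single 3 1) - mon k m * y k 3 = 0 := by
      simp [mon, pow_succ, mul_assoc]
    exact this ▸ zero_mem _

lemma degree_le_of_coeff {n : ℤ} {p : SP k} (hp : p ∈ Wd k 0 n) {m : Fin 4 →₀ ℕ}
    (hm : coeff m p ≠ 0) : (m.degree : ℤ) ≤ n :=
  not_lt.1 fun h => hm (mem_Wd_zero.1 hp m h)

lemma psi_mem {n : ℤ} {p : SP k} (hp : p ∈ Wd k 0 n) : psi k p ∈ F k n :=
  mem_of_monomials _ _ p fun m hm => by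
    rw [psi_monomial]; exact F_mono (degree_le_of_coeff hp hm) (mon_mem m)

lemma psi_X_mul {n : ℤ} {p : SP k} (hp : p ∈ Wd k 0 n) (j : Fin 4) :
    psi k (X j * p) - psi k p * y k j ∈ F k n := by
  refine mem_of_monomials (psi k ∘ₗ LinearMap.mulLeft k (X j)
    - LinearMap.mulRight k (y k j) ∘ₗ psi k) _ p fun m hm => ?_
  have h1 : (X j : SP k) * monomial m 1 = monomial (m + Finsupp.single j 1) 1 := by
    rw [monomial_add_single, pow_one, mul_comm]
  simp only [LinearMap.sub_apply, LinearMap.comp_apply, LinearMap.mulLeft_apply,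
    LinearMap.mulRight_apply, h1, psi_monomial]
  exact F_mono (degree_le_of_coeff hp hm) (mon_add_single m j)

lemma psi_phi_nat (n : ℕ) : ∀ u ∈ F k n, psi k (phi k u) - u ∈ F k (n - 1) := by
  induction n with
  | zero =>
    intro u hu
    obtain ⟨c, rfl⟩ := mem_F_zero hu
    have h1 : (C c : SP k) = c • monomial 0 1 := by
      rw [smul_monomial, smul_eq_mul, mul_one, C_apply]
    rw [phi_algebraMap, h1, map_smul, psi_monomial, Algebra.algebraMap_eq_smul_one]
    simp [mon]
  | succ n ih =>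
    intro u hu
    push_cast at hu ⊢
    rw [add_sub_cancel_right]
    refine F_succ_induction_right (n := n) (by simp)
      (P := fun u => psi k (phi k u) - u ∈ F k n) ?_ ?_ ?_ hu
    · intro u hu; exact F_mono (by omega) (ih u hu)
    · intro u hu j
      have h1 := psi_mem (rhoGen_sub_mem (phi_mem hu) j)
      have h2 := psi_X_mul (phi_mem hu) j
      have h3 := mul_mem_F (ih u hu) (y_mem_F j)
      rw [sub_add_cancel] at h3
      have := add_mem (add_mem h1 h2) h3
      convert this using 1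
      rw [phi_mul_y, map_sub, sub_mul]
      abel
    · intro u v hu hv
      have := add_mem hu hv
      convert this using 1
      rw [map_add, map_add]
      abel

lemma psi_phi {n : ℤ} {u : U k} (hu : u ∈ F k n) : psi k (phi k u) - u ∈ F k (n - 1) := by
  by_cases hn : n < 0
  · rw [F_neg hn] at hu; simp at hu; simp [hu]
  obtain ⟨n, rfl⟩ := Int.eq_ofNat_of_zero_le (not_lt.1 hn)
  exact psi_phi_nat n u hu

lemma L_le_comap (i : ℕ) (n : ℤ) : L (k := k) i (n + 1) ≤ (Wd k i n).comap (phi k) := by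
  unfold L
  rw [add_sub_cancel_right]
  refine sup_le (fun u hu => Wd_le i le_rfl (phi_mem hu)) (iSup₂_le fun j hj => ?_)
  rintro _ ⟨u, hu, rfl⟩
  rw [Submodule.mem_comap, LinearMap.mulRight_apply, phi_mul_y,
    ← sub_add_cancel (rhoGen k j (phi k u)) (X j * phi k u)]
  refine add_mem (Wd_le i le_rfl (rhoGen_sub_mem (phi_mem hu) j)) fun m _ hm => ?_
  rw [coeff_X_mul', if_neg (Finsupp.notMem_support_iff.2 (hm j hj))]

theorem pbw_key {k : Type} [Field k] (i : Fin 4) (n : ℤ) (u : U k) (hu : u ∈ F k n)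
    (h : u * y k i ∈ L (k := k) i (n + 1)) : u ∈ L (k := k) i n := by
  have hp := phi_mem hu
  have h1 : rhoGen k i (phi k u) ∈ Wd k i n := by
    rw [← phi_mul_y]; exact L_le_comap i n h
  have h2 : X i * phi k u ∈ Wd k i n := by
    have := sub_mem h1 (Wd_le i le_rfl (rhoGen_sub_mem hp i))
    rwa [sub_sub_cancel] at this
  have h3 : phi k u ∈ Wd k i (n - 1) := fun m hm1 hm2 => by
    rw [← coeff_X_mul m i]
    refine h2 _ (by rw [add_comm, degree_add_single]; omega) fun j hj => ?_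
    rw [Finsupp.add_apply, hm2 j hj, Finsupp.single_eq_of_ne (by rintro rfl; omega)]
  have hF : F k (n - 1) ≤ L (k := k) i n := le_sup_left
  have h4 : psi k (phi k u) ∈ L (k := k) i n := by
    refine mem_of_monomials _ _ _ fun m hm => ?_
    rw [psi_monomial]
    have hd := degree_le_of_coeff hp hm
    by_cases hd' : (m.degree : ℤ) ≤ n - 1
    · exact hF (F_mono hd' (mon_mem m))
    have : ∃ j : Fin 4, (j : ℕ) < i ∧ m j ≠ 0 := by
      by_contra hc
      push Not at hc
      exact hm (h3 m (not_le.1 hd') hc)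
    obtain ⟨j, hj, hmj⟩ := this
    have e := sub_single_add hmj
    have e2 := degree_add_single (m - Finsupp.single j 1) j
    have e3 := mon_add_single (k := k) (m - Finsupp.single j 1) j
    rw [e] at e2 e3
    rw [← sub_add_cancel (mon k m) (mon k (m - Finsupp.single j 1) * y k j)]
    refine add_mem (hF (F_mono (by omega) e3)) ?_
    refine Submodule.mem_sup_right (Submodule.mem_iSup_of_mem j (Submodule.mem_iSup_of_mem hj ?_))
    exact ⟨_, F_mono (by omega) (mon_mem _), rfl⟩
  have := sub_mem h4 (hF (psi_phi hu))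
  rwa [sub_sub_cancel] at this

end Vale.Agent.P176
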