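import Vale.Agent.P176.Gsig

/-!
Symmetric powers of the natural module and the translation steps between them.
-/

namespace Vale.Agent.P176

open MvPolynomial

namespace Sym

variable {k : Type} [Field k]

lemma pderiv_comm (i j : Fin 2) (q : MvPolynomial (Fin 2) k) :
    pderiv i (pderiv j q) = pderiv j (pderiv i q) := by
  induction q using MvPolynomial.induction_on with
  | C a => simp
  | add p q hp hq => simp [hp, hq]
  | mul_X p n hp =>
    simp only [pderiv_mul, map_add, hp]
    fin_cases i <;> fin_cases j <;> fin_cases n <;> simp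

variable (k) in
/-- the operator `x i * d / d x j` -/
noncomputable def E (i j : Fin 2) : Module.End k (MvPolynomial (Fin 2) k) :=
  (LinearMap.mulLeft k (X i)).comp (pderiv j : Derivation k _ _).toLinearMap

lemma E_apply (i j : Fin 2) (q : MvPolynomial (Fin 2) k) : E k i j q = X i * pderiv j q := rfl

lemma d00 : pderiv 0 (X 0 : MvPolynomial (Fin 2) k) = 1 := pderiv_X_self 0
lemma d11 : pderiv 1 (X 1 : MvPolynomial (Fin 2) k) = 1 := pderiv_X_self 1
lemma d01 : pderiv 0 (X 1 : MvPolynomial (Fin 2) k) = 0 := pderiv_X_of_ne (by decide)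
lemma d10 : pderiv 1 (X 0 : MvPolynomial (Fin 2) k) = 0 := pderiv_X_of_ne (by decide)

variable (k) in
/-- the action on polynomials -/
noncomputable def rho : U k →ₐ[k] Module.End k (MvPolynomial (Fin 2) k) :=
  Ulift ![E k 0 0, E k 1 1, E k 0 1, E k 1 0]
    (LinearMap.ext fun q => by
      show E k 0 0 (E k 1 1 q) = E k 1 1 (E k 0 0 q)
      simp only [E_apply, pderiv_mul, d01, d10, pderiv_comm 1 0]
      ring)
    (LinearMap.ext fun q => by
      show E k 0 0 (E k 0 1 q) = E k 0 1 (E k 0 0 q) + E k 0 1 q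
      simp only [E_apply, pderiv_mul, d00, d10, pderiv_comm 1 0]
      ring)
    (LinearMap.ext fun q => by
      show E k 0 0 (E k 1 0 q) = E k 1 0 (E k 0 0 q) - E k 1 0 q
      simp only [E_apply, pderiv_mul, d00, d01]
      ring)
    (LinearMap.ext fun q => by
      show E k 1 1 (E k 0 1 q) = E k 0 1 (E k 1 1 q) - E k 0 1 q
      simp only [E_apply, pderiv_mul, d11, d10]
      ring)
    (LinearMap.ext fun q => by
      show E k 1 1 (E k 1 0 q) = E k 1 0 (E k 1 1 q) + E k 1 0 q
      simp only [E_apply, pderiv_mul, d11, d01, pderiv_comm 1 0]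
      ring)
    (LinearMap.ext fun q => by
      show E k 0 1 (E k 1 0 q) = E k 1 0 (E k 0 1 q) + E k 0 0 q - E k 1 1 q
      simp only [E_apply, pderiv_mul, d11, d00, pderiv_comm 1 0]
      ring)

lemma rho_y0 (q : MvPolynomial (Fin 2) k) : rho k (y k 0) q = X 0 * pderiv 0 q := by
  simp [rho, E_apply]
lemma rho_y1 (q : MvPolynomial (Fin 2) k) : rho k (y k 1) q = X 1 * pderiv 1 q := by
  simp [rho, E_apply]
lemma rho_y2 (q : MvPolynomial (Fin 2) k) : rho k (y k 2) q = X 0 * pderiv 1 q := by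
  simp [rho, E_apply]
lemma rho_y3 (q : MvPolynomial (Fin 2) k) : rho k (y k 3) q = X 1 * pderiv 0 q := by
  simp [rho, E_apply]

variable (k) in
/-- homogeneous polynomials of degree `m - 1` -/
noncomputable def H : ℕ → Submodule k (MvPolynomial (Fin 2) k)
  | 0 => ⊥
  | m + 1 => homogeneousSubmodule (Fin 2) k m

lemma X_mul_mem {m : ℕ} (i : Fin 2) {q : MvPolynomial (Fin 2) k} (hq : q ∈ H k m) :
    X i * q ∈ H k (m + 1) := by
  cases m with
  | zero =>
    rw [(Submodule.mem_bot k).1 hq, mul_zero]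
    exact zero_mem _
  | succ m =>
    have := (isHomogeneous_X k i).mul hq
    rwa [add_comm] at this

lemma pderiv_mem {m : ℕ} (i : Fin 2) {q : MvPolynomial (Fin 2) k} (hq : q ∈ H k (m + 1)) :
    pderiv i q ∈ H k m := by
  cases m with
  | zero =>
    have h1 : q ∈ homogeneousSubmodule (Fin 2) k 0 := hq
    rw [homogeneousSubmodule_zero, Submodule.mem_one] at h1
    obtain ⟨c, rfl⟩ := h1
    rw [Derivation.map_algebraMap]
    exact zero_mem _
  | succ m => exact IsHomogeneous.pderiv (i := i) hq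

lemma euler {m : ℕ} {q : MvPolynomial (Fin 2) k} (hq : q ∈ H k m) :
    X 0 * pderiv 0 q + X 1 * pderiv 1 q + q = (m : MvPolynomial (Fin 2) k) * q := by
  cases m with
  | zero => simp [(Submodule.mem_bot k).1 hq]
  | succ m =>
    have := IsHomogeneous.sum_X_mul_pderiv hq
    rw [Fin.sum_univ_two, nsmul_eq_mul] at this
    rw [this]
    push_cast
    ring

lemma E_mem {m : ℕ} (i j : Fin 2) {q : MvPolynomial (Fin 2) k} (hq : q ∈ H k m) :
    X i * pderiv j q ∈ H k m := by
  cases m with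
  | zero => simp [(Submodule.mem_bot k).1 hq]
  | succ m => exact X_mul_mem i (pderiv_mem j hq)

lemma rho_mem {m : ℕ} (r : U k) : ∀ q ∈ H k m, rho k r q ∈ H k m := by
  induction r using U_induction with
  | halg c =>
    intro q hq
    rw [AlgHom.commutes, Module.algebraMap_end_apply]
    exact Submodule.smul_mem _ _ hq
  | hy i =>
    intro q hq
    fin_cases i
    · exact (rho_y0 q).symm ▸ E_mem 0 0 hq
    · exact (rho_y1 q).symm ▸ E_mem 1 1 hq
    · exact (rho_y2 q).symm ▸ E_mem 0 1 hq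
    · exact (rho_y3 q).symm ▸ E_mem 1 0 hq
  | hmul a b ha hb =>
    intro q hq
    rw [map_mul]
    exact ha _ (hb q hq)
  | hadd a b ha hb =>
    intro q hq
    rw [map_add]
    exact add_mem (ha q hq) (hb q hq)

variable (k) in
/-- the module structure on `H m` -/
@[reducible] noncomputable def modH (m : ℕ) : Module (U k) (H k m) where
  smul r x := ⟨rho k r x.1, rho_mem r _ x.2⟩
  one_smul x := Subtype.ext (by show rho k 1 x.1 = x.1; simp)
  mul_smul r s x := Subtype.ext (by show rho k (r * s) x.1 = rho k r (rho k s x.1); simp)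
  smul_zero r := Subtype.ext (by show rho k r 0 = 0; simp)
  smul_add r x z := Subtype.ext (by
    show rho k r (x.1 + z.1) = rho k r x.1 + rho k r z.1
    simp)
  add_smul r s x := Subtype.ext (by
    show rho k (r + s) x.1 = rho k r x.1 + rho k s x.1
    simp)
  zero_smul x := Subtype.ext (by show rho k 0 x.1 = 0; simp)

lemma finite_H (m : ℕ) : Module.Finite k (H k m) := by
  cases m with
  | zero => exact Module.Finite.iff_fg.2 Submodule.fg_bot
  | succ m => exact Module.Finite.iff_fg.2 (homogeneousSubmodule_fg _ _ m)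

variable (k) in
/-- the finite-dimensional modules -/
noncomputable def XX (m : ℕ) : FD k :=
  letI := modH k m
  { X := H k m
    tower := ⟨fun c r x => Subtype.ext (by
      show rho k (c • r) x.1 = c • rho k r x.1
      simp)⟩
    fin := finite_H m }

/-- the underlying polynomial -/
def val {m : ℕ} (x : (XX k m).X) : MvPolynomial (Fin 2) k := Subtype.val (p := fun q => q ∈ H k m) x

lemma val_sum {m : ℕ} (r : Fin 2 → U k) (w : Fin 2 → (XX k m).X) :
    val (∑ b, r b • w b) = ∑ b, rho k (r b) (val (w b)) := by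
  rw [Fin.sum_univ_two, Fin.sum_univ_two]
  rfl

lemma i_poly (r : U k) : ∀ (q : MvPolynomial (Fin 2) k) (a : Fin 2),
    ![X 1 * rho k r q, -(X 0 * rho k r q)] a =
      ∑ b, rho k (g k r a b) (![X 1 * q, -(X 0 * q)] b) := by
  induction r using U_induction with
  | halg c =>
    intro q a
    fin_cases a <;> simp [Matrix.algebraMap_matrix_apply]
  | hy i =>
    intro q a
    rw [g_y]
    fin_cases i <;> fin_cases a <;>
      simp [gGen, rho_y0, rho_y1, rho_y2, rho_y3] <;> ring
  | hmul r s hr hs =>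
    intro q a
    rw [map_mul, Module.End.mul_apply, hr, map_mul]
    simp only [hs, Matrix.mul_apply, map_sum, map_mul, LinearMap.sum_apply, Module.End.mul_apply]
    exact Finset.sum_comm
  | hadd r s hr hs =>
    intro q a
    simp only [map_add, Matrix.add_apply, LinearMap.add_apply, Finset.sum_add_distrib, ← hr, ← hs]
    fin_cases a <;> simp <;> ring

lemma p_poly (r : U k) : ∀ w : Fin 2 → MvPolynomial (Fin 2) k,
    pderiv 1 (∑ b, rho k (g k r 0 b) (w b)) - pderiv 0 (∑ b, rho k (g k r 1 b) (w b)) =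
      rho k r (pderiv 1 (w 0) - pderiv 0 (w 1)) := by
  induction r using U_induction with
  | halg c =>
    intro w
    simp [Matrix.algebraMap_matrix_apply, smul_sub]
  | hy i =>
    intro w
    rw [g_y]
    fin_cases i <;>
      simp [gGen, rho_y0, rho_y1, rho_y2, rho_y3, pderiv_comm 1 0] <;> ring
  | hmul r s hr hs =>
    intro w
    rw [map_mul (rho k), Module.End.mul_apply, ← hs, ← hr fun c => ∑ b, rho k (g k s c b) (w b),
      map_mul]
    have e : ∀ a, ∑ b, rho k ((g k r * g k s) a b) (w b) =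
        ∑ c, rho k (g k r a c) (∑ b, rho k (g k s c b) (w b)) := by
      intro a
      simp only [Matrix.mul_apply, map_sum, map_mul, LinearMap.sum_apply, Module.End.mul_apply]
      exact Finset.sum_comm
    rw [e, e]
  | hadd r s hr hs =>
    intro w
    simp only [map_add, Matrix.add_apply, LinearMap.add_apply, Finset.sum_add_distrib, ← hr, ← hs]
    ring

lemma sig_poly (w : Fin 2 → MvPolynomial (Fin 2) k) (a : Fin 2) :
    ∑ b, rho k (sig k a b) (w b) = pderiv a (X 0 * w 0 + X 1 * w 1) := by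
  fin_cases a <;> simp [sig, rho_y0, rho_y1, rho_y2, rho_y3] <;> ring

/-- the step data -/
noncomputable def step [CharZero k] (m : ℕ) : Step (XX k (m + 1)) (XX k m) where
  c := (m + 1 : ℕ)
  hc := Nat.cast_ne_zero.2 (Nat.succ_ne_zero m)
  i :=
    { toFun := fun x a => ⟨![X 1 * x.1, -(X 0 * x.1)] a, by
        fin_cases a
        · exact X_mul_mem 1 x.2
        · exact neg_mem (X_mul_mem 0 x.2)⟩
      map_zero' := by
        funext a
        refine Subtype.ext ?_
        show ![X 1 * (0 : MvPolynomial (Fin 2) k), -(X 0 * 0)] a = 0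
        fin_cases a <;> simp
      map_add' := fun x z => by
        funext a
        refine Subtype.ext ?_
        show ![X 1 * (x.1 + z.1), -(X 0 * (x.1 + z.1))] a =
          ![X 1 * x.1, -(X 0 * x.1)] a + ![X 1 * z.1, -(X 0 * z.1)] a
        fin_cases a <;> simp <;> ring }
  p :=
    { toFun := fun w => ⟨((m + 1 : ℕ) : k)⁻¹ • (pderiv 1 (w 0).1 - pderiv 0 (w 1).1),
        Submodule.smul_mem _ _ (sub_mem (pderiv_mem 1 (w 0).2) (pderiv_mem 0 (w 1).2))⟩
      map_zero' := by
        refine Subtype.ext ?_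
        show ((m + 1 : ℕ) : k)⁻¹ • (pderiv 1 (0 : MvPolynomial (Fin 2) k) - pderiv 0 0) = 0
        simp
      map_add' := fun w z => by
        refine Subtype.ext ?_
        show ((m + 1 : ℕ) : k)⁻¹ • (pderiv 1 ((w 0).1 + (z 0).1) - pderiv 0 ((w 1).1 + (z 1).1)) =
          ((m + 1 : ℕ) : k)⁻¹ • (pderiv 1 (w 0).1 - pderiv 0 (w 1).1) +
            ((m + 1 : ℕ) : k)⁻¹ • (pderiv 1 (z 0).1 - pderiv 0 (z 1).1)
        rw [← smul_add, map_add, map_add]
        congr 1
        ring }
  i_smul := fun r x a => Subtype.ext (by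
    refine Eq.trans ?_ (val_sum (g k r a) _).symm
    exact i_poly r x.1 a)
  p_smul := fun r w => Subtype.ext (by
    show ((m + 1 : ℕ) : k)⁻¹ • (pderiv 1 (val (∑ b, g k r 0 b • w b)) -
      pderiv 0 (val (∑ b, g k r 1 b • w b))) =
      rho k r (((m + 1 : ℕ) : k)⁻¹ • (pderiv 1 (w 0).1 - pderiv 0 (w 1).1))
    rw [val_sum, val_sum, p_poly r fun b => val (w b), map_smul]
    rfl)
  p_i := fun x => Subtype.ext (by
    show ((m + 1 : ℕ) : k)⁻¹ • (pderiv 1 (X 1 * x.1) - pderiv 0 (-(X 0 * x.1))) = x.1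
    have h1 : pderiv 1 (X 1 * x.1) - pderiv 0 (-(X 0 * x.1)) = ((m + 1 : ℕ) : k) • x.1 := by
      rw [Nat.cast_smul_eq_nsmul, nsmul_eq_mul, map_neg, pderiv_mul, pderiv_mul, d00, d11]
      push_cast
      linear_combination euler x.2
    rw [h1, smul_smul, inv_mul_cancel₀ (Nat.cast_ne_zero.2 (Nat.succ_ne_zero m)), one_smul])
  sig_i := fun x a => Subtype.ext (by
    refine (val_sum (sig k a) _).trans ((sig_poly _ a).trans ?_)
    show pderiv a (X 0 * (X 1 * x.1) + X 1 * -(X 0 * x.1)) = 0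
    rw [show X 0 * (X 1 * x.1) + X 1 * -(X 0 * x.1) = 0 by ring, map_zero])
  p_sig := fun w => Subtype.ext (by
    show ((m + 1 : ℕ) : k)⁻¹ • (pderiv 1 (val (∑ b, sig k 0 b • w b)) -
      pderiv 0 (val (∑ b, sig k 1 b • w b))) = 0
    rw [val_sum, val_sum, sig_poly (fun b => val (w b)), sig_poly (fun b => val (w b)),
      pderiv_comm 1 0, sub_self, smul_zero])
  decomp := fun w a => Subtype.ext (by
    show ((m + 1 : ℕ) : k) •
      ![X 1 * (((m + 1 : ℕ) : k)⁻¹ • (pderiv 1 (w 0).1 - pderiv 0 (w 1).1)),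
        -(X 0 * (((m + 1 : ℕ) : k)⁻¹ • (pderiv 1 (w 0).1 - pderiv 0 (w 1).1)))] a +
      val (∑ b, sig k a b • w b) = ((m + 1 : ℕ) : k) • (w a).1
    have hc : ((m + 1 : ℕ) : k) ≠ 0 := Nat.cast_ne_zero.2 (Nat.succ_ne_zero m)
    rw [val_sum, sig_poly (fun b => val (w b)), Nat.cast_smul_eq_nsmul k (m + 1) (w a).1,
      nsmul_eq_mul, ← euler (w a).2]
    fin_cases a
    · show ((m + 1 : ℕ) : k) • (X 1 * (((m + 1 : ℕ) : k)⁻¹ •
        (pderiv 1 (w 0).1 - pderiv 0 (w 1).1))) + pderiv 0 (X 0 * (w 0).1 + X 1 * (w 1).1) =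
        X 0 * pderiv 0 (w 0).1 + X 1 * pderiv 1 (w 0).1 + (w 0).1
      rw [mul_smul_comm, smul_inv_smul₀ hc, map_add, pderiv_mul, pderiv_mul, d00, d01]
      ring
    · show ((m + 1 : ℕ) : k) • (-(X 0 * (((m + 1 : ℕ) : k)⁻¹ •
        (pderiv 1 (w 0).1 - pderiv 0 (w 1).1)))) + pderiv 1 (X 0 * (w 0).1 + X 1 * (w 1).1) =
        X 0 * pderiv 0 (w 1).1 + X 1 * pderiv 1 (w 1).1 + (w 1).1
      rw [mul_smul_comm, smul_neg, smul_inv_smul₀ hc, map_add, pderiv_mul, pderiv_mul, d10, d11]
      ring)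

end Sym

theorem exists_steps (k : Type) [Field k] [CharZero k] : ∃ X : ℕ → FD k,
    Subsingleton (X 0).X ∧ Nontrivial (X 1).X ∧ ∀ m, Nonempty (Step (X (m + 1)) (X m)) := by
  refine ⟨Sym.XX k, ?_, ?_, fun m => ⟨Sym.step m⟩⟩
  · exact ⟨fun a b => Subtype.ext
      (((Submodule.mem_bot k).1 a.2).trans ((Submodule.mem_bot k).1 b.2).symm)⟩
  · exact ⟨⟨⟨1, isHomogeneous_one _ _⟩, ⟨0, zero_mem _⟩,
      fun h => one_ne_zero (congrArg Subtype.val h)⟩⟩

end Vale.Agent.P176
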