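import Vale.Agent.P176.Gamma
import Vale.Agent.P176.PBW
import Vale.Agent.P176.Sym

/-!
Modules of finite, unbounded projective dimension over `Gam`.
-/

namespace Vale.Agent.P176

open Matrix CategoryTheory

variable {k : Type} [Field k]

variable (k) in
/-- the square-zero ideal -/
def nil : Set (Gam k) := {γ | γ.1.1 = 0}

lemma nil_mul : ∀ ν ∈ nil k, ∀ γ : Gam k, ν * γ ∈ nil k := by
  intro ν hν γ
  change ν.1.1 * γ.1.1 = 0
  rw [show ν.1.1 = 0 from hν, zero_mul]

lemma rad_eq_zero {I : Type} [Fintype I] [DecidableEq I] (r : Rep k (Gam k) I)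
    (hr : ∀ ν ∈ nil k, r.ρ ν = 0) {Q : FMod k} {x : MM r Q} (hx : x ∈ rad (nil k) (MM r Q)) :
    x = 0 := by
  have : rad (nil k) (MM r Q) ≤ ⊥ := by
    rw [rad, Submodule.span_le]
    rintro _ ⟨ν, hν, m, rfl⟩
    exact MM_ext fun i => by simp [MM_smul_apply, hr ν hν]
  exact this hx

lemma nil_I : ∀ ν ∈ nil k, (rI k).ρ ν = 0 := fun _ hν => hν

lemma nil_A : ∀ ν ∈ nil k, (rA k).ρ ν = 0 := fun ν hν => by
  change ((rI k).ρ ν).toBlocks₂₂ = 0
  rw [nil_I ν hν]; rfl

lemma map_mem_rad {Γ : Type} [Ring Γ] {M₁ M₂ : Type} [AddCommGroup M₁] [Module Γ M₁]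
    [AddCommGroup M₂] [Module Γ M₂] (𝔫 : Set Γ) (f : M₁ →ₗ[Γ] M₂) {x : M₁}
    (hx : x ∈ rad 𝔫 M₁) : f x ∈ rad 𝔫 M₂ := by
  have : rad 𝔫 M₁ ≤ (rad 𝔫 M₂).comap f := by
    rw [rad, Submodule.span_le]
    rintro _ ⟨ν, hν, m, rfl⟩
    exact Submodule.subset_span ⟨ν, hν, f m, (map_smul f ν m).symm⟩
  exact this hx

lemma base_eq_zero_of_rad {Q : FMod k} {x : MM (rE k) Q} (hx : x ∈ rad (nil k) (MM (rE k) Q))
    (n : Fin 5) : x.1 (Sum.inl n) = 0 :=
  congrArg (fun w : MM (rA k) Q => w.1 n)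
    (rad_eq_zero (rA k) nil_A (map_mem_rad _ (block_E.proj Q) hx))

/-- a vector with one nonzero entry -/
noncomputable def sgl {Γ : Type} [Ring Γ] {I : Type} [Fintype I] [DecidableEq I]
    (r : Rep k Γ I) (Q : FMod k) (i : I) : Q.G (r.deg i) →+ MM r Q where
  toFun q := ⟨Pi.single i q.1, fun j => by
    by_cases h : j = i
    · subst h; simp
    · simp [h]⟩
  map_zero' := MM_ext fun j => by simp
  map_add' a b := MM_ext fun j => by simp [Pi.single_add]

lemma sum_sgl {Γ : Type} [Ring Γ] {I : Type} [Fintype I] [DecidableEq I]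
    (r : Rep k Γ I) (Q : FMod k) (x : MM r Q) : ∑ i, sgl r Q i ⟨x.1 i, x.2 i⟩ = x := by
  apply Subtype.ext
  rw [AddSubgroup.val_finsetSum]
  exact Finset.univ_sum_single x.1

lemma sgl_smul_mem_rad {Q : FMod k} (v : V5 ⊕ V5) (j : Fin 5) {u : U k}
    (hu : u ∈ F k (dK v - d5 j)) {q : Q.Q} (hq : q ∈ Q.G (d5 j)) (h) :
    sgl (rE k) Q (Sum.inr v) ⟨u • q, h⟩ ∈ rad (nil k) (MM (rE k) Q) := by
  have hν : IsFM dK d5 (Matrix.single v j u) := fun a b => by
    by_cases hab : v = a ∧ j = b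
    · obtain ⟨rfl, rfl⟩ := hab; simpa using hu
    · rw [Matrix.single_apply_of_ne (h := hab)]; exact zero_mem _
  refine Submodule.subset_span ⟨⟨mkG 0 0 0 (Matrix.single v j u), _, _, _, _, IsFM.zero,
    IsFM.zero, IsFM.zero, hν, rfl⟩, fromBlocks_zero, sgl (rE k) Q (Sum.inl j) ⟨q, hq⟩,
    MM_ext fun i => ?_⟩
  rw [MM_smul_apply]
  change ∑ l, (fromBlocks 0 0 (Matrix.single v j u) (Khat 0 0 0)) i l •
    (Pi.single (Sum.inl j) q : Fin 5 ⊕ V5 ⊕ V5 → Q.Q) l =
      (Pi.single (Sum.inr v) (u • q) : Fin 5 ⊕ V5 ⊕ V5 → Q.Q) i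
  rw [Finset.sum_eq_single (Sum.inl j) (fun l _ hl => by simp [hl]) (by simp)]
  rcases i with i | i
  · simp
  · by_cases h : i = v
    · subst h; simp
    · simp [h, Matrix.single_apply_of_ne, Ne.symm h]

lemma mem_rad_of_base {Q : FMod k} (hQ : Gen Q) {x : MM (rE k) Q}
    (hx : ∀ n, x.1 (Sum.inl n) = 0) : x ∈ rad (nil k) (MM (rE k) Q) := by
  rw [← sum_sgl _ _ x]
  refine Submodule.sum_mem _ ?_
  rintro (n | v) -
  · have : (⟨x.1 (Sum.inl n), x.2 _⟩ : Q.G ((rE k).deg (Sum.inl n))) = 0 := Subtype.ext (hx n)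
    rw [this, map_zero]; exact zero_mem _
  · have h0 : 0 ≤ dK v := by rcases v with v | v <;> simp only [dK, d5, Sum.elim_inl,
      Sum.elim_inr] <;> omega
    by_cases h5 : dK v = 5
    · have hq : x.1 (Sum.inr v) ∈ Q.G 5 := h5 ▸ x.2 (Sum.inr v)
      have key : ∀ q ∈ AddSubgroup.closure {x | ∃ u ∈ F k 1, ∃ q' ∈ Q.G 4, u • q' = x},
          ∃ h, sgl (rE k) Q (Sum.inr v) ⟨q, h⟩ ∈ rad (nil k) (MM (rE k) Q) := by
        intro q hq
        induction hq using AddSubgroup.closure_induction with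
        | mem _ h =>
          obtain ⟨u, hu, q', hq', rfl⟩ := h
          refine ⟨?_, sgl_smul_mem_rad v 4 (by rw [h5]; exact hu) hq' _⟩
          change _ ∈ Q.G (dK v)
          rw [h5]; exact Q.smul_mem hu hq'
        | zero => exact ⟨zero_mem _, by
            rw [show (⟨0, _⟩ : Q.G ((rE k).deg (Sum.inr v))) = 0 from rfl, map_zero]
            exact zero_mem _⟩
        | add a b _ _ ha hb =>
          obtain ⟨ha, ha'⟩ := ha; obtain ⟨hb, hb'⟩ := hb
          exact ⟨add_mem ha hb, by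
            have := add_mem ha' hb'
            rwa [← map_add] at this⟩
        | neg a _ ha =>
          obtain ⟨ha, ha'⟩ := ha
          exact ⟨neg_mem ha, by
            have := neg_mem ha'
            rwa [← map_neg] at this⟩
      exact (key _ (hQ _ hq)).2
    · have h4 : dK v ≤ 5 := by rcases v with v | v <;> simp only [dK, d5, Sum.elim_inl,
        Sum.elim_inr] <;> omega
      have hj : d5 ⟨(dK v).toNat, by omega⟩ = dK v := by simp [d5, h0]
      have := sgl_smul_mem_rad (Q := Q) v ⟨(dK v).toNat, by omega⟩ (u := 1)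
        (one_mem_F (by omega)) (q := x.1 (Sum.inr v)) (by rw [hj]; exact x.2 (Sum.inr v))
        (by rw [one_smul]; exact x.2 (Sum.inr v))
      simpa only [one_smul] using this

section Good

variable (J : Type) [AddCommGroup J] [Module (Gam k) J] [Module.Injective (Gam k) J]

lemma devissable_E : Devissable fun Q => Good (Gam k) (MM (rE k) Q) (ann (nil k) nil_mul J) where
  free ι _ _ p := by
    have := projective_E (k := k) ι p
    exact Good.of_projective
  iso Q₁ Q₂ φ hφ hinj hsurj h := h.of_equiv (MMequiv (rE k) φ hφ hinj hsurj).symm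
  step Q₁ Q₂ Q₃ φ ψ hφ hψ hinj hzero hex hsurj hgen h₁ h₂ :=
    (MMmap_ses (rE k) φ ψ hφ hψ hinj hzero hex hsurj).good₃
      (extend_to_ann _ fun x hx => mem_rad_of_base hgen fun n =>
        hinj ((base_eq_zero_of_rad hx n).trans (map_zero φ).symm)) h₁ h₂

lemma devissable_I : Devissable fun Q => Good (Gam k) (MM (rI k) Q) (ann (nil k) nil_mul J) where
  free ι _ _ p := by
    have := projective_I (k := k) ι p
    exact Good.of_projective
  iso Q₁ Q₂ φ hφ hinj hsurj h := h.of_equiv (MMequiv (rI k) φ hφ hinj hsurj).symm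
  step Q₁ Q₂ Q₃ φ ψ hφ hψ hinj hzero hex hsurj _ h₁ h₂ :=
    (MMmap_ses (rI k) φ ψ hφ hψ hinj hzero hex hsurj).good₃
      (extend_to_ann _ fun x hx => by
        have : x = 0 := (MMmap_ses (rI k) φ ψ hφ hψ hinj hzero hex hsurj).inj
          ((rad_eq_zero (rI k) nil_I hx).trans (map_zero _).symm)
        rw [this]; exact zero_mem _) h₁ h₂

lemma good_E (X : FD k) : Good (Gam k) (MM (rE k) (triv k X.X)) (ann (nil k) nil_mul J) :=
  (devissable_E J).triv pbw_key X.X

lemma good_I (X : FD k) : Good (Gam k) (MM (rI k) (triv k X.X)) (ann (nil k) nil_mul J) :=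
  (devissable_I J).triv pbw_key X.X

end Good

/-- two copies of a module -/
def VT (X : FD k) : Type := Fin 2 → X.X

instance (X : FD k) : AddCommGroup (VT X) := inferInstanceAs (AddCommGroup (Fin 2 → X.X))
instance (X : FD k) : Module k (VT X) := inferInstanceAs (Module k (Fin 2 → X.X))
instance (X : FD k) : Module.Finite k (VT X) := inferInstanceAs (Module.Finite k (Fin 2 → X.X))

noncomputable instance (X : FD k) : Module (U k) (VT X) :=
  letI := Matrix.Module.matrixModule (ι := Fin 2) (R := U k) (M := X.X)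
  Module.compHom (Fin 2 → X.X) (g k).toRingHom

lemma VT_smul (X : FD k) (r : U k) (w : VT X) (a : Fin 2) :
    (r • w) a = ∑ b, g k r a b • w b := rfl

instance (X : FD k) : IsScalarTower k (U k) (VT X) where
  smul_assoc c r w := funext fun a => by
    change _ = c • (r • w) a
    simp [VT_smul]

/-- the translated module -/
noncomputable def FD.V (X : FD k) : FD k := { X := VT X }

/-- the endomorphism given by `sig` -/
noncomputable def sigL (X : FD k) : VT X →ₗ[U k] VT X where
  toFun w a := ∑ b, sig k a b • w b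
  map_add' v w := funext fun a => by
    change ∑ b, sig k a b • (v b + w b) = ∑ b, sig k a b • v b + ∑ b, sig k a b • w b
    simp [Finset.sum_add_distrib]
  map_smul' r w := funext fun a => by
    have h := congrFun (sig_comm r) a
    change ∑ b, sig k a b • ∑ c, g k r b c • w c = ∑ b, g k r a b • ∑ c, sig k b c • w c
    simp only [Finset.smul_sum, ← mul_smul]
    rw [Finset.sum_comm, Finset.sum_comm (f := fun x y => (g k r a x * sig k x y) • w y)]
    refine Finset.sum_congr rfl fun c _ => ?_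
    rw [← Finset.sum_smul, ← Finset.sum_smul, ← Matrix.mul_apply, ← Matrix.mul_apply,
      congrFun h c]

lemma mem_triv {X : Type} [AddCommGroup X] [Module (U k) X] {n : ℤ} (hn : 0 ≤ n) (x : X) :
    x ∈ (triv k X).G n := by
  change x ∈ (if n < 0 then ⊥ else ⊤ : AddSubgroup X)
  rw [if_neg (by omega)]; trivial

lemma d5_nonneg (n : Fin 5) : 0 ≤ d5 n := by simp [d5]

lemma dK_nonneg (v : V5 ⊕ V5) : 0 ≤ dK v := by
  rcases v with v | v <;> simp only [dK, d5, Sum.elim_inl, Sum.elim_inr] <;> omega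

section Step

variable {X Y : FD k}

/-- first component -/
def k0 (w : MM (rK k) (triv k X.X)) (n : Fin 5) : VT X := fun a => w.1 (Sum.inl (n, a))
/-- second component -/
def k1 (w : MM (rK k) (triv k X.X)) (n : Fin 5) : VT X := fun a => w.1 (Sum.inr (n, a))

lemma k0_smul (γ : Gam k) (w : MM (rK k) (triv k X.X)) (n : Fin 5) :
    k0 (γ • w) n = ∑ m, cb₀ γ n m • k0 w m + ∑ m, cδ γ n m • sigL X (k1 w m) := by
  funext a
  have h1 : ∀ f : Fin 5 → VT X, (∑ m, f m) a = ∑ m, f m a := fun f => Finset.sum_apply a _ f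
  change (γ • w).1 _ = (∑ m, cb₀ γ n m • k0 w m) a + (∑ m, cδ γ n m • sigL X (k1 w m)) a
  rw [h1, h1, MM_smul_apply, rK_ρ, Fintype.sum_sum_type, Fintype.sum_prod_type,
    Fintype.sum_prod_type]
  congr 1
  refine Finset.sum_congr rfl fun m _ => ?_
  simp only [Khat, fromBlocks_apply₁₂, G5_mul_S5_apply]
  change ∑ b, (g k (cδ γ n m) * sig k) a b • k1 w m b =
    ∑ c, g k (cδ γ n m) a c • ∑ b, sig k c b • k1 w m b
  simp only [Matrix.mul_apply, Finset.sum_smul, mul_smul, Finset.smul_sum]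
  rw [Finset.sum_comm]

lemma k1_smul (γ : Gam k) (w : MM (rK k) (triv k X.X)) (n : Fin 5) :
    k1 (γ • w) n = ∑ m, cb₁ γ n m • k1 w m := by
  funext a
  have h1 : ∀ f : Fin 5 → VT X, (∑ m, f m) a = ∑ m, f m a := fun f => Finset.sum_apply a _ f
  change (γ • w).1 _ = _
  rw [h1, MM_smul_apply, rK_ρ, Fintype.sum_sum_type, Fintype.sum_prod_type,
    Fintype.sum_prod_type]
  simp only [Khat, fromBlocks_apply₂₁, Matrix.zero_apply, zero_smul, Finset.sum_const_zero,
    zero_add]
  rfl

/-- assembling an element from its components -/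
def mkK (w₀ w₁ : Fin 5 → VT X) : MM (rK k) (triv k X.X) :=
  ⟨Sum.elim (fun v => w₀ v.1 v.2) (fun v => w₁ v.1 v.2), fun v => mem_triv (dK_nonneg v) _⟩

lemma K_ext {v w : MM (rK k) (triv k X.X)} (h₀ : ∀ n, k0 v n = k0 w n)
    (h₁ : ∀ n, k1 v n = k1 w n) : v = w :=
  MM_ext <| by
    rintro (⟨n, a⟩ | ⟨n, a⟩)
    exacts [congrFun (h₀ n) a, congrFun (h₁ n) a]

@[simp] lemma k0_mkK (w₀ w₁ : Fin 5 → VT X) (n : Fin 5) : k0 (mkK w₀ w₁) n = w₀ n := rfl
@[simp] lemma k1_mkK (w₀ w₁ : Fin 5 → VT X) (n : Fin 5) : k1 (mkK w₀ w₁) n = w₁ n := rfl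
@[simp] lemma k0_add (v w : MM (rK k) (triv k X.X)) (n : Fin 5) :
    k0 (v + w) n = k0 v n + k0 w n := rfl
@[simp] lemma k1_add (v w : MM (rK k) (triv k X.X)) (n : Fin 5) :
    k1 (v + w) n = k1 v n + k1 w n := rfl

variable (st : Step X Y)

/-- inclusion -/
noncomputable def Step.iL : Y.X →ₗ[U k] VT X where
  toFun := st.i
  map_add' := st.i.map_add
  map_smul' r x := funext fun a => st.i_smul r x a

/-- projection -/
noncomputable def Step.pL : VT X →ₗ[U k] Y.X where
  toFun := st.p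
  map_add' := st.p.map_add
  map_smul' r x := st.p_smul r x

lemma Step.pL_iL (x : Y.X) : st.pL (st.iL x) = x := st.p_i x
lemma Step.sig_iL (x : Y.X) : sigL X (st.iL x) = 0 := funext fun a => st.sig_i x a
lemma Step.pL_sig (w : VT X) : st.pL (sigL X w) = 0 := st.p_sig w
lemma Step.decompL (w : VT X) : st.c • st.iL (st.pL w) + sigL X w = st.c • w :=
  funext fun a => st.decomp w a

lemma sigL_smul (c : k) (w : VT X) : sigL X (c • w) = c • sigL X w :=
  LinearMap.map_smul_of_tower _ c w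

lemma Step.sig_sig (w : VT X) : sigL X (sigL X w) = st.c • sigL X w := by
  have := congrArg (sigL X) (st.decompL w)
  rwa [map_add, sigL_smul, sigL_smul, st.sig_iL, smul_zero, zero_add] at this

/-- projection to the second summand -/
noncomputable def Step.toT : MM (rK k) (triv k X.X) →ₗ[Gam k] MM (rT k) (triv k Y.X) where
  toFun w := ⟨fun n => st.pL (k1 w n), fun n => mem_triv (d5_nonneg n) _⟩
  map_add' v w := MM_ext fun n => by simp
  map_smul' γ w := MM_ext fun n => by
    change st.pL (k1 (γ • w) n) = ∑ m, cb₁ γ n m • st.pL (k1 w m)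
    simp [k1_smul]

/-- inclusion of the second summand -/
noncomputable def Step.ofT : MM (rT k) (triv k Y.X) →ₗ[Gam k] MM (rK k) (triv k X.X) where
  toFun w := mkK 0 fun n => st.iL (w.1 n)
  map_add' v w := K_ext (fun n => by simp) fun n => st.iL.map_add (v.1 n) (w.1 n)
  map_smul' γ w := K_ext (fun n => by simp [k0_smul, st.sig_iL]) fun n => by
    change st.iL (∑ m, cb₁ γ n m • (w.1 m : Y.X)) = _
    simp [k1_smul]

lemma Step.toT_ofT (w : MM (rT k) (triv k Y.X)) : st.toT (st.ofT w) = w :=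
  MM_ext fun n => st.pL_iL (w.1 n)

/-- projection to the first summand -/
noncomputable def Step.toA : MM (rK k) (triv k X.X) →ₗ[Gam k] MM (rA k) (triv k Y.X) where
  toFun w := ⟨fun n => st.pL (k0 w n), fun n => mem_triv (d5_nonneg n) _⟩
  map_add' v w := MM_ext fun n => by simp
  map_smul' γ w := MM_ext fun n => by
    change st.pL (k0 (γ • w) n) = ∑ m, cb₀ γ n m • st.pL (k0 w m)
    simp [k0_smul, st.pL_sig]

/-- inclusion of the first summand -/
noncomputable def Step.ofA : MM (rA k) (triv k Y.X) →ₗ[Gam k] MM (rK k) (triv k X.X) where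
  toFun w := mkK (fun n => st.iL (w.1 n)) 0
  map_add' v w := K_ext (fun n => st.iL.map_add (v.1 n) (w.1 n)) fun n => by simp
  map_smul' γ w := K_ext (fun n => by
    change st.iL (∑ m, cb₀ γ n m • (w.1 m : Y.X)) = _
    simp [k0_smul]) fun n => by simp [k1_smul]

lemma I_smul_inl (γ : Gam k) (w : MM (rI k) (triv k (VT X))) (n : Fin 5) :
    (γ • w).1 (Sum.inl n) = ∑ m, cb₁ γ n m • (w.1 (Sum.inl m) : VT X) := by
  rw [MM_smul_apply, rI_ρ, Fintype.sum_sum_type]
  simp

lemma I_smul_inr (γ : Gam k) (w : MM (rI k) (triv k (VT X))) (n : Fin 5) :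
    (γ • w).1 (Sum.inr n) = ∑ m, cδ γ n m • (w.1 (Sum.inl m) : VT X) +
      ∑ m, cb₀ γ n m • (w.1 (Sum.inr m) : VT X) := by
  rw [MM_smul_apply, rI_ρ, Fintype.sum_sum_type]
  simp

lemma smul_comm_VT (c : k) (r : U k) (w : VT X) : c • r • w = r • c • w := by
  rw [← algebraMap_smul (U k) c, ← algebraMap_smul (U k) c w, ← mul_smul, ← mul_smul,
    Algebra.commutes]

/-- projection to the third summand -/
noncomputable def Step.toI : MM (rK k) (triv k X.X) →ₗ[Gam k] MM (rI k) (triv k (VT X)) where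
  toFun w := ⟨Sum.elim (fun n => (st.c⁻¹ • sigL X (k1 w n) : VT X))
      (fun n => (st.c⁻¹ • st.c⁻¹ • sigL X (k0 w n) : VT X)), by
    rintro (n | n) <;> exact mem_triv (d5_nonneg n) _⟩
  map_add' v w := MM_ext <| by
    rintro (n | n)
    · change (st.c⁻¹ • sigL X (k1 v n + k1 w n) : VT X) =
        st.c⁻¹ • sigL X (k1 v n) + st.c⁻¹ • sigL X (k1 w n)
      rw [map_add, smul_add]
    · change (st.c⁻¹ • st.c⁻¹ • sigL X (k0 v n + k0 w n) : VT X) =
        st.c⁻¹ • st.c⁻¹ • sigL X (k0 v n) + st.c⁻¹ • st.c⁻¹ • sigL X (k0 w n)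
      rw [map_add, smul_add, smul_add]
  map_smul' γ w := MM_ext <| by
    rintro (n | n)
    · rw [RingHom.id_apply, I_smul_inl]
      change (st.c⁻¹ • sigL X (k1 (γ • w) n) : VT X) =
        ∑ m, cb₁ γ n m • (st.c⁻¹ • sigL X (k1 w m) : VT X)
      simp only [k1_smul, map_sum, map_smul, Finset.smul_sum, smul_comm_VT]
    · rw [RingHom.id_apply, I_smul_inr]
      change (st.c⁻¹ • st.c⁻¹ • sigL X (k0 (γ • w) n) : VT X) =
        ∑ m, cδ γ n m • (st.c⁻¹ • sigL X (k1 w m) : VT X) +
        ∑ m, cb₀ γ n m • (st.c⁻¹ • st.c⁻¹ • sigL X (k0 w m) : VT X)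
      simp only [k0_smul, map_add, map_sum, map_smul, Finset.smul_sum, smul_add, st.sig_sig,
        smul_comm_VT, inv_smul_smul₀ st.hc]
      rw [add_comm]

/-- inclusion of the third summand -/
noncomputable def Step.ofI : MM (rI k) (triv k (VT X)) →ₗ[Gam k] MM (rK k) (triv k X.X) where
  toFun w := mkK (fun n => sigL X (w.1 (Sum.inr n))) fun n => st.c⁻¹ • sigL X (w.1 (Sum.inl n))
  map_add' v w := K_ext (fun n => (sigL X).map_add (v.1 (Sum.inr n)) (w.1 (Sum.inr n))) fun n => by
    change st.c⁻¹ • sigL X ((v.1 (Sum.inl n) : VT X) + (w.1 (Sum.inl n) : VT X)) = _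
    rw [map_add, smul_add]; rfl
  map_smul' γ w := K_ext (fun n => by
      rw [k0_mkK, I_smul_inr, RingHom.id_apply, k0_smul]
      simp only [map_add, map_sum, map_smul, k0_mkK, k1_mkK, sigL_smul, st.sig_sig,
        inv_smul_smul₀ st.hc]
      rw [add_comm]) fun n => by
    rw [k1_mkK, I_smul_inl, RingHom.id_apply, k1_smul]
    simp only [map_sum, map_smul, k1_mkK, Finset.smul_sum, smul_comm_VT]

lemma Step.decomp' (w : VT X) : st.iL (st.pL w) + st.c⁻¹ • sigL X w = w := by
  have := congrArg (st.c⁻¹ • ·) (st.decompL w)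
  simpa only [smul_add, inv_smul_smul₀ st.hc] using this

lemma Step.retract (w : MM (rK k) (triv k X.X)) :
    st.ofA (st.toA w) + (st.ofT (st.toT w) + st.ofI (st.toI w)) = w := by
  refine K_ext (fun n => ?_) fun n => ?_
  · change st.iL (st.pL (k0 w n)) + (0 + sigL X (st.c⁻¹ • st.c⁻¹ • sigL X (k0 w n))) = _
    rw [zero_add, sigL_smul, sigL_smul, st.sig_sig, inv_smul_smul₀ st.hc, st.decomp']
  · change 0 + (st.iL (st.pL (k1 w n)) + st.c⁻¹ • sigL X (st.c⁻¹ • sigL X (k1 w n))) = _
    rw [zero_add, sigL_smul, st.sig_sig, inv_smul_smul₀ st.hc, st.decomp']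

end Step

lemma finite_A (X : FD k) : Module.Finite (Gam k) (MM (rA k) (triv k X.X)) := by
  obtain ⟨s, hs⟩ := Module.Finite.fg_top (R := k) (M := X.X)
  let e : Fin 5 → X.X → MM (rA k) (triv k X.X) := fun i x =>
    sgl (rA k) (triv k X.X) i ⟨x, mem_triv (d5_nonneg i) x⟩
  let N : Submodule (Gam k) (MM (rA k) (triv k X.X)) :=
    Submodule.span (Gam k) (⋃ i, e i '' s)
  have hN : ∀ i x, e i x ∈ N := by
    intro i x
    have hx : x ∈ Submodule.span k (s : Set X.X) := hs ▸ Submodule.mem_top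
    induction hx using Submodule.span_induction with
    | mem x hx => exact Submodule.subset_span (Set.mem_iUnion.2 ⟨i, x, hx, rfl⟩)
    | zero =>
      have : e i 0 = 0 := (sgl (rA k) (triv k X.X) i).map_zero
      rw [this]; exact zero_mem _
    | add x y _ _ hx hy =>
      have : e i (x + y) = e i x + e i y := (sgl (rA k) (triv k X.X) i).map_add
        ⟨x, mem_triv (d5_nonneg i) x⟩ ⟨y, mem_triv (d5_nonneg i) y⟩
      rw [this]; exact add_mem hx hy
    | smul c x _ hx =>
      have : e i (c • x) = algebraMap k (Gam k) c • e i x := MM_ext fun j => by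
        rw [MM_smul_apply]
        have h1 : (rA k).ρ (algebraMap k (Gam k) c) = algebraMap k _ c := by
          rw [rA_ρ, cb₀, Subalgebra.coe_algebraMap, Prod.algebraMap_apply]
          ext a b
          simp [toBlocks₂₂, Matrix.algebraMap_matrix_apply]
        rw [h1]
        change (Pi.single i (c • x) : Fin 5 → X.X) j =
          ∑ l, algebraMap k (Matrix (Fin 5) (Fin 5) (U k)) c j l • (Pi.single i x : Fin 5 → X.X) l
        rw [Finset.sum_eq_single j (fun l _ hl => by
          rw [Matrix.algebraMap_matrix_apply, if_neg (Ne.symm hl), zero_smul]) (by simp),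
          Matrix.algebraMap_matrix_apply, if_pos rfl, algebraMap_smul]
        by_cases h : j = i
        · subst h; simp
        · simp [h]
      rw [this]; exact N.smul_mem _ hx
  refine ⟨⟨(Set.finite_iUnion fun i => s.finite_toSet.image (e i)).toFinset, ?_⟩⟩
  rw [Set.Finite.coe_toFinset, eq_top_iff]
  intro w _
  rw [← sum_sgl _ _ w]
  exact Submodule.sum_mem _ fun i _ => hN i (w.1 i)

theorem main (k : Type) [Field k] [CharZero k] (n : ℕ) :
    ∃ M : ModuleCat.{0} (Gam k), Module.Finite (Gam k) M ∧ projectiveDimension M ≠ ⊤ ∧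
      (n : WithBot ℕ∞) ≤ projectiveDimension M := by
  obtain ⟨X, h0, h1, hst⟩ := exists_steps k
  obtain ⟨J, _, _, _, ι, hι⟩ := exists_injective (Γ := Gam k) (MM (rK k) (triv k (X 1).X))
  have hfin : ∀ m, FinPD (Gam k) (MM (rA k) (triv k (X m).X)) := by
    intro m
    induction m with
    | zero =>
      have : Subsingleton (MM (rA k) (triv k (X 0).X)) :=
        ⟨fun a b => MM_ext fun _ => h0.elim _ _⟩
      exact FinPD.of_subsingleton
    | succ m ih =>
      obtain ⟨st⟩ := hst m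
      have hT := (block_I.ses (triv k (X m).X)).finPD₃ ih (good_I J (X m)).1
      have hK := FinPD.of_retract (st.toA.prod (st.toT.prod st.toI))
        (st.ofA.coprod (st.ofT.coprod st.ofI)) st.retract
        (ih.prod (hT.prod (good_I J (X (m + 1)).V).1))
      exact (block_E.ses (triv k (X (m + 1)).X)).finPD₃ hK (good_E J (X (m + 1))).1
  have hlow : ∀ m, ¬ Van (Gam k) (MM (rA k) (triv k (X (m + 1)).X)) (ann (nil k) nil_mul J)
      (2 * m + 1) := by
    intro m
    induction m with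
    | zero =>
      intro h
      have hkill : ∀ w : MM (rK k) (triv k (X 1).X), ι w ∈ ann (nil k) nil_mul J := by
        intro w ν hν
        have h0 : (rK k).ρ ν = 0 := by
          have h' : ν.1.1 = 0 := hν
          rw [rK_ρ, cb₁, cb₀, cδ, h']
          exact Khat_zero
        rw [← map_smul]
        have : ν • w = 0 := MM_ext fun i => by simp [MM_smul_apply, h0]
        rw [this, map_zero]
      obtain ⟨ψ, hψ⟩ := (block_E.ses (triv k (X 1).X)).extend h (ι.codRestrict _ hkill)
      obtain ⟨x, hx⟩ := exists_ne (0 : (X 1).X)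
      let w : MM (rK k) (triv k (X 1).X) := mkK (fun _ _ => x) 0
      have hgen : Gen (triv k (X 1).X) := fun q _ =>
        AddSubgroup.subset_closure ⟨1, one_mem_F (by norm_num), q, mem_triv (by norm_num) _,
          one_smul _ _⟩
      have hw : ψ (block_E.incl _ w) = 0 :=
        ann_kills_rad ψ (mem_rad_of_base hgen fun _ => rfl)
      have hw' : ι w = ι 0 := by
        rw [map_zero]
        exact (congrArg Subtype.val (LinearMap.congr_fun hψ w)).symm.trans
          (congrArg Subtype.val hw)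
      exact hx (congrArg (fun v => k0 v 0 0) (hι hw'))
    | succ m ih =>
      intro h
      obtain ⟨st⟩ := hst (m + 1)
      have hK := (block_E.ses (triv k (X (m + 2)).X)).van₁ ((good_E J (X (m + 2))).2 (2 * m + 1)) h
      have hT := hK.of_retract _ _ st.toT_ofT
      exact ih ((block_I.ses (triv k (X (m + 1)).X)).van₁ ((good_I J (X (m + 1))).2 (2 * m)) hT)
  exact ⟨ModuleCat.of _ (MM (rA k) (triv k (X (n + 1)).X)), finite_A _, (hfin _).ne_top,
    le_trans (by exact_mod_cast (by omega : n ≤ 2 * n + 1)) (le_pd_of_not_van (hlow n))⟩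

end Vale.Agent.P176
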