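import Mathlib

/-!
The enveloping algebra of gl2 by generators and relations, with its degree filtration.
Generators: `y 0 = s = E11`, `y 1 = t = E22`, `y 2 = e = E12`, `y 3 = f = E21`.
-/

namespace Vale.Agent.P176

open FreeAlgebra

variable (k : Type) [Field k]

/-- defining relations -/
inductive URel : FreeAlgebra k (Fin 4) → FreeAlgebra k (Fin 4) → Prop
  | st : URel (ι k 0 * ι k 1) (ι k 1 * ι k 0)
  | se : URel (ι k 0 * ι k 2) (ι k 2 * ι k 0 + ι k 2)
  | sf : URel (ι k 0 * ι k 3) (ι k 3 * ι k 0 - ι k 3)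
  | te : URel (ι k 1 * ι k 2) (ι k 2 * ι k 1 - ι k 2)
  | tf : URel (ι k 1 * ι k 3) (ι k 3 * ι k 1 + ι k 3)
  | ef : URel (ι k 2 * ι k 3) (ι k 3 * ι k 2 + ι k 0 - ι k 1)

/-- the enveloping algebra -/
def U : Type := RingQuot (URel k)

noncomputable instance : Ring (U k) := inferInstanceAs (Ring (RingQuot (URel k)))

noncomputable instance : Algebra k (U k) := inferInstanceAs (Algebra k (RingQuot (URel k)))

/-- the quotient map -/
noncomputable def Umk : FreeAlgebra k (Fin 4) →ₐ[k] U k := RingQuot.mkAlgHom k (URel k)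

/-- generators -/
noncomputable def y (i : Fin 4) : U k := Umk k (ι k i)

variable {k}

lemma Umk_rel {a b : FreeAlgebra k (Fin 4)} (h : URel k a b) : Umk k a = Umk k b :=
  RingQuot.mkAlgHom_rel k h

lemma y_st : y k 0 * y k 1 = y k 1 * y k 0 := by
  simpa [y] using Umk_rel (URel.st (k := k))
lemma y_se : y k 0 * y k 2 = y k 2 * y k 0 + y k 2 := by
  simpa [y] using Umk_rel (URel.se (k := k))
lemma y_sf : y k 0 * y k 3 = y k 3 * y k 0 - y k 3 := by
  simpa [y] using Umk_rel (URel.sf (k := k))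
lemma y_te : y k 1 * y k 2 = y k 2 * y k 1 - y k 2 := by
  simpa [y] using Umk_rel (URel.te (k := k))
lemma y_tf : y k 1 * y k 3 = y k 3 * y k 1 + y k 3 := by
  simpa [y] using Umk_rel (URel.tf (k := k))
lemma y_ef : y k 2 * y k 3 = y k 3 * y k 2 + y k 0 - y k 1 := by
  simpa [y] using Umk_rel (URel.ef (k := k))

/-- universal property -/
noncomputable def Ulift {A : Type*} [Ring A] [Algebra k A] (a : Fin 4 → A)
    (h01 : a 0 * a 1 = a 1 * a 0) (h02 : a 0 * a 2 = a 2 * a 0 + a 2)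
    (h03 : a 0 * a 3 = a 3 * a 0 - a 3) (h12 : a 1 * a 2 = a 2 * a 1 - a 2)
    (h13 : a 1 * a 3 = a 3 * a 1 + a 3) (h23 : a 2 * a 3 = a 3 * a 2 + a 0 - a 1) :
    U k →ₐ[k] A :=
  RingQuot.liftAlgHom k ⟨FreeAlgebra.lift k a, by
    intro x z h
    cases h <;> simp [*]⟩

@[simp] lemma Ulift_y {A : Type*} [Ring A] [Algebra k A] (a : Fin 4 → A) (h01 h02 h03 h12 h13 h23)
    (i : Fin 4) : Ulift (k := k) a h01 h02 h03 h12 h13 h23 (y k i) = a i := by
  exact (RingQuot.liftAlgHom_mkAlgHom_apply k (FreeAlgebra.lift k a) _ _).trans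
    (FreeAlgebra.lift_ι_apply a i)

lemma U_induction {P : U k → Prop} (halg : ∀ c : k, P (algebraMap k (U k) c))
    (hy : ∀ i, P (y k i)) (hmul : ∀ a b, P a → P b → P (a * b))
    (hadd : ∀ a b, P a → P b → P (a + b)) (u : U k) : P u := by
  obtain ⟨x, rfl⟩ : ∃ x, Umk k x = u := RingQuot.mkAlgHom_surjective k (URel k) u
  induction x using FreeAlgebra.induction with
  | grade0 r => simpa using halg r
  | grade1 i => exact hy i
  | mul a b ha hb => simpa using hmul _ _ ha hb
  | add a b ha hb => simpa using hadd _ _ ha hb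

variable (k)

/-- span of `1` and the generators -/
noncomputable def F1 : Submodule k (U k) := Submodule.span k (insert 1 (Set.range (y k)))

/-- the degree filtration, indexed by integers -/
noncomputable def F (n : ℤ) : Submodule k (U k) := if n < 0 then ⊥ else F1 k ^ n.toNat

variable {k}

lemma F_neg {n : ℤ} (h : n < 0) : F k n = ⊥ := by simp [F, h]

lemma F_nat (n : ℕ) : F k n = F1 k ^ n := by simp [F]

lemma one_mem_F1 : (1 : U k) ∈ F1 k := Submodule.subset_span (by simp)

lemma y_mem_F1 (i : Fin 4) : y k i ∈ F1 k := Submodule.subset_span (by simp)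

lemma F_one : F k 1 = F1 k := by simpa using F_nat (k := k) 1

lemma F_zero : F k 0 = 1 := by simpa using F_nat (k := k) 0

lemma y_mem_F (i : Fin 4) : y k i ∈ F k 1 := F_one (k := k) ▸ y_mem_F1 i

lemma mul_mem_F {a b : ℤ} {u v : U k} (hu : u ∈ F k a) (hv : v ∈ F k b) :
    u * v ∈ F k (a + b) := by
  by_cases ha : a < 0
  · rw [F_neg ha] at hu; simp at hu; simp [hu]
  by_cases hb : b < 0
  · rw [F_neg hb] at hv; simp at hv; simp [hv]
  obtain ⟨a, rfl⟩ := Int.eq_ofNat_of_zero_le (not_lt.1 ha)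
  obtain ⟨b, rfl⟩ := Int.eq_ofNat_of_zero_le (not_lt.1 hb)
  rw [F_nat] at hu hv
  rw [← Nat.cast_add, F_nat, pow_add]
  exact Submodule.mul_mem_mul hu hv

lemma one_mem_F_nat (n : ℕ) : (1 : U k) ∈ F k n := by
  induction n with
  | zero => rw [Nat.cast_zero, F_zero]; exact Submodule.one_le.1 le_rfl
  | succ n ih =>
    have := mul_mem_F ih (F_one (k := k) ▸ one_mem_F1)
    simpa using this

lemma F_mono {a b : ℤ} (h : a ≤ b) : F k a ≤ F k b := by
  intro u hu
  have := mul_mem_F hu (one_mem_F_nat (k := k) (b - a).toNat)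
  rwa [mul_one, Int.toNat_of_nonneg (by omega), add_sub_cancel] at this

lemma one_mem_F {n : ℤ} (h : 0 ≤ n) : (1 : U k) ∈ F k n :=
  F_mono h (by simpa using one_mem_F_nat (k := k) 0)

lemma algebraMap_mem_F {n : ℤ} (h : 0 ≤ n) (c : k) : algebraMap k (U k) c ∈ F k n := by
  rw [Algebra.algebraMap_eq_smul_one]; exact Submodule.smul_mem _ _ (one_mem_F h)

lemma F_fg (n : ℤ) : (F k n).FG := by
  unfold F
  split_ifs
  · exact Submodule.fg_bot
  · apply Submodule.FG.pow
    exact Submodule.fg_span ((Set.finite_range _).insert _)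

lemma exists_mem_F (u : U k) : ∃ n : ℕ, u ∈ F k n := by
  induction u using U_induction with
  | halg c => exact ⟨0, algebraMap_mem_F (by simp) c⟩
  | hy i => exact ⟨1, by simpa using y_mem_F i⟩
  | hmul a b ha hb =>
    obtain ⟨m, hm⟩ := ha; obtain ⟨n, hn⟩ := hb
    exact ⟨m + n, by simpa using mul_mem_F hm hn⟩
  | hadd a b ha hb =>
    obtain ⟨m, hm⟩ := ha; obtain ⟨n, hn⟩ := hb
    exact ⟨m + n, add_mem (F_mono (by push_cast; omega) hm) (F_mono (by push_cast; omega) hn)⟩

/-- induction principle for `F (n+1)`, multiplying on the right -/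
lemma F_succ_induction_right {n : ℤ} (hn : 0 ≤ n) {P : U k → Prop}
    (h1 : ∀ u ∈ F k n, P u) (hy : ∀ u ∈ F k n, ∀ i, P (u * y k i))
    (hadd : ∀ a b, P a → P b → P (a + b)) {u : U k} (hu : u ∈ F k (n + 1)) : P u := by
  obtain ⟨n, rfl⟩ := Int.eq_ofNat_of_zero_le hn
  rw [← Nat.cast_add_one, F_nat, pow_succ, ← F_nat] at hu
  refine Submodule.mul_induction_on hu ?_ hadd
  intro a ha b hb
  induction hb using Submodule.span_induction generalizing a with
  | mem x hx =>
    rcases hx with rfl | ⟨i, rfl⟩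
    · simpa using h1 a ha
    · exact hy a ha i
  | zero => simpa using h1 0 (zero_mem _)
  | add x z _ _ hx hz => rw [mul_add]; exact hadd _ _ (hx a ha) (hz a ha)
  | smul c x _ hx =>
    rw [mul_smul_comm, ← smul_mul_assoc]; exact hx _ (Submodule.smul_mem _ _ ha)

/-- induction principle for `F (n+1)`, multiplying on the left -/
lemma F_succ_induction_left {n : ℤ} (hn : 0 ≤ n) {P : U k → Prop}
    (h1 : ∀ u ∈ F k n, P u) (hy : ∀ u ∈ F k n, ∀ i, P (y k i * u))
    (hadd : ∀ a b, P a → P b → P (a + b)) {u : U k} (hu : u ∈ F k (n + 1)) : P u := by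
  obtain ⟨n, rfl⟩ := Int.eq_ofNat_of_zero_le hn
  rw [← Nat.cast_add_one, F_nat, pow_succ', ← F_nat] at hu
  refine Submodule.mul_induction_on hu ?_ hadd
  intro b hb a ha
  induction hb using Submodule.span_induction generalizing a with
  | mem x hx =>
    rcases hx with rfl | ⟨i, rfl⟩
    · simpa using h1 a ha
    · exact hy a ha i
  | zero => simpa using h1 0 (zero_mem _)
  | add x z _ _ hx hz => rw [add_mul]; exact hadd _ _ (hx a ha) (hz a ha)
  | smul c x _ hx =>
    rw [smul_mul_assoc, ← mul_smul_comm]; exact hx _ (Submodule.smul_mem _ _ ha)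

lemma mem_F_zero {u : U k} (hu : u ∈ F k 0) : ∃ c : k, u = algebraMap k (U k) c := by
  rw [F_zero, Submodule.mem_one] at hu
  obtain ⟨c, rfl⟩ := hu
  exact ⟨c, rfl⟩

/-- `lowIdeal i n = F (n-1) + ∑_{j<i} F (n-1) * y j` -/
noncomputable def L (i : ℕ) (n : ℤ) : Submodule k (U k) :=
  F k (n - 1) ⊔ ⨆ (j : Fin 4) (_ : (j : ℕ) < i), (F k (n - 1)).map (LinearMap.mulRight k (y k j))

end Vale.Agent.P176
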